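import Mathlib
import Crest.Prelude.Def_BernoulliConv

set_option autoImplicit false
open Polynomial Crest.AnalysisR

namespace Crest.Agent.R104

/-- Chebyshev-like recursion: if `w ≠ 0`, `y = w + w⁻¹` satisfies `y² = a y - b`, then
`w^n + w^{-n} = A n + B n * y` with integers depending only on `a, b, n`. -/
lemma cheb_int (a b : ℤ) (n : ℕ) : ∃ A B A' B' : ℤ, ∀ w : ℂ, w ≠ 0 →
    (w + w⁻¹) ^ 2 = a * (w + w⁻¹) - b →
    w ^ n + w⁻¹ ^ n = A + B * (w + w⁻¹) ∧ w ^ (n + 1) + w⁻¹ ^ (n + 1) = A' + B' * (w + w⁻¹) := by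
  induction n with
  | zero =>
    refine ⟨2, 0, 0, 1, fun w _ _ => ⟨by norm_num, by simp⟩⟩
  | succ n ih =>
    obtain ⟨A, B, A', B', h⟩ := ih
    refine ⟨A', B', -b * B' - A, A' + a * B' - B, fun w hw hy => ⟨(h w hw hy).2, ?_⟩⟩
    obtain ⟨h1, h2⟩ := h w hw hy
    have hww : w * w⁻¹ = 1 := mul_inv_cancel₀ hw
    have key : w ^ (n + 1 + 1) + w⁻¹ ^ (n + 1 + 1) =
        (w + w⁻¹) * (w ^ (n + 1) + w⁻¹ ^ (n + 1)) - (w ^ n + w⁻¹ ^ n) := by
      have e1 : w * w⁻¹ ^ (n + 1) = w⁻¹ ^ n := by rw [pow_succ', ← mul_assoc, hww, one_mul]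
      have e2 : w⁻¹ * w ^ (n + 1) = w ^ n := by
        rw [pow_succ', ← mul_assoc, mul_comm w⁻¹, hww, one_mul]
      calc _ = w * w ^ (n + 1) + w⁻¹ * w⁻¹ ^ (n + 1) := by ring
        _ = _ := by rw [add_mul, mul_add, mul_add, e1, e2]; ring
    rw [key, h1, h2]
    push_cast
    linear_combination (B' : ℂ) * hy

lemma salem_data (β : ℝ) (hβ : IsQuarticSalem β) :
    ∃ α : ℂ, ‖α‖ = 1 ∧ IsIntegral ℤ β ∧ IsIntegral ℤ β⁻¹ ∧
      ∀ m : ℤ, ∃ k : ℤ, β ^ m + β ^ (-m) + 2 * (α ^ m).re = k := by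
  obtain ⟨h1, hint, hdeg, hinv, hroots⟩ := hβ
  have hβ0 : β ≠ 0 := by linarith
  have hintQ : IsIntegral ℚ β := hint.tower_top
  set p := minpoly ℚ β with hp
  have hmonic : p.Monic := minpoly.monic hintQ
  have hirr : Irreducible p := minpoly.irreducible hintQ
  have hsep : p.Separable := hirr.separable
  have hpZ : p = (minpoly ℤ β).map (algebraMap ℤ ℚ) :=
    minpoly.isIntegrallyClosed_eq_field_fractions' ℚ hint
  set q := minpoly ℤ β with hq
  have hqmonic : q.Monic := minpoly.monic hint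
  have hinvInt : IsIntegral ℤ β⁻¹ := by
    refine ⟨q, hqmonic, ?_⟩
    have := hinv
    rw [hpZ, aeval_map_algebraMap] at this
    exact this
  set P := p.map (algebraMap ℚ ℂ) with hP
  have hPmonic : P.Monic := hmonic.map _
  have hPdeg : P.natDegree = 4 := by rw [hP, natDegree_map]; exact hdeg
  have hsplit : P.Splits := IsAlgClosed.splits _
  have hcard : Multiset.card P.roots = 4 := by rw [← hPdeg]; exact hsplit.natDegree_eq_card_roots.symm
  have hnodup : P.roots.Nodup := nodup_roots hsep.map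
  have hmem : ∀ z : ℂ, z ∈ P.roots ↔ aeval z p = 0 := by
    intro z
    rw [mem_roots hPmonic.ne_zero, IsRoot.def, hP, eval_map_algebraMap]
  have hβroot : (β : ℂ) ∈ P.roots := by
    rw [hmem]
    have := minpoly.aeval ℚ β
    have h2 := congrArg (algebraMap ℝ ℂ) this
    rw [← aeval_algebraMap_apply] at h2
    simpa using h2
  have hβiroot : ((β⁻¹ : ℝ) : ℂ) ∈ P.roots := by
    rw [hmem]
    have h2 := congrArg (algebraMap ℝ ℂ) hinv
    rw [← aeval_algebraMap_apply] at h2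
    simpa using h2
  have hne : ((β⁻¹ : ℝ) : ℂ) ≠ (β : ℂ) := by
    intro h
    have h' : β⁻¹ = β := by exact_mod_cast h
    have : β⁻¹ < 1 := inv_lt_one_of_one_lt₀ h1
    linarith
  obtain ⟨r1, hr1⟩ := Multiset.exists_cons_of_mem hβroot
  have hβi1 : ((β⁻¹ : ℝ) : ℂ) ∈ r1 := by
    have := hβiroot
    rw [hr1, Multiset.mem_cons] at this
    exact this.resolve_left hne
  obtain ⟨r2, hr2⟩ := Multiset.exists_cons_of_mem hβi1
  have hc2 : Multiset.card r2 = 2 := by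
    have := hcard
    rw [hr1, hr2] at this
    simpa using this
  obtain ⟨z₁, z₂, hz⟩ := Multiset.card_eq_two.1 hc2
  have hroots_eq : P.roots = (β : ℂ) ::ₘ ((β⁻¹ : ℝ) : ℂ) ::ₘ {z₁, z₂} := by rw [hr1, hr2, hz]
  have hnd := hnodup
  rw [hroots_eq] at hnd
  simp only [Multiset.nodup_cons, Multiset.insert_eq_cons, Multiset.mem_cons,
    Multiset.mem_singleton, not_or] at hnd
  obtain ⟨⟨-, hb1, hb2⟩, ⟨hi1, hi2⟩, h12, -⟩ := hnd
  have hz1root : z₁ ∈ P.roots := by rw [hroots_eq]; simp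
  have hz1n : ‖z₁‖ = 1 := by
    rcases hroots z₁ ((hmem _).1 hz1root) with h | h | h
    · exact absurd h.symm hb1
    · exact absurd h.symm hi1
    · exact h
  have hconj : (starRingEnd ℂ) z₁ ∈ P.roots := by
    rw [hmem]
    have h := (hmem _).1 hz1root
    have h2 := congrArg (Complex.conjAe.toAlgHom.restrictScalars ℚ) h
    rw [← aeval_algHom_apply] at h2
    simpa using h2
  have hnorat : ∀ r : ℚ, aeval (r : ℂ) p ≠ 0 := by
    intro r hr
    have h2 : p.IsRoot r := by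
      have : aeval (algebraMap ℚ ℂ r) p = 0 := hr
      rw [aeval_algebraMap_apply] at this
      simpa using this
    have := degree_eq_one_of_irreducible_of_root hirr h2
    have h3 : p.natDegree = 1 := natDegree_eq_of_degree_eq_some this
    omega
  have hz2 : z₂ = (starRingEnd ℂ) z₁ := by
    have hcn : ‖(starRingEnd ℂ) z₁‖ = 1 := by rw [Complex.norm_conj]; exact hz1n
    rw [hroots_eq] at hconj
    simp only [Multiset.insert_eq_cons, Multiset.mem_cons, Multiset.mem_singleton] at hconj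
    rcases hconj with h | h | h | h
    · rw [h] at hcn
      simp only [Complex.norm_real, Real.norm_eq_abs] at hcn
      rw [abs_of_pos (by linarith)] at hcn
      linarith
    · rw [h] at hcn
      simp only [Complex.norm_real, Real.norm_eq_abs] at hcn
      rw [abs_of_pos (by positivity)] at hcn
      have : β⁻¹ < 1 := inv_lt_one_of_one_lt₀ h1
      linarith
    · exfalso
      obtain ⟨r, hr⟩ := Complex.conj_eq_iff_real.1 h
      have hr1 : |r| = 1 := by simpa [hr] using hz1n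
      have hroot := (hmem _).1 hz1root
      rcases abs_eq (by norm_num : (0 : ℝ) ≤ 1) |>.1 hr1 with h' | h'
      · apply hnorat 1
        simpa [hr, h'] using hroot
      · apply hnorat (-1)
        simpa [hr, h'] using hroot
    · exact h.symm
  have hz10 : z₁ ≠ 0 := by
    intro h; rw [h] at hz1n; simp at hz1n
  have hinvz : z₁⁻¹ = (starRingEnd ℂ) z₁ := Complex.inv_eq_conj hz1n
  have hprod := hsplit.eq_prod_roots_of_monic hPmonic
  rw [hroots_eq, hz2, ← hinvz] at hprod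
  simp only [Multiset.insert_eq_cons, Multiset.map_cons, Multiset.map_singleton,
    Multiset.prod_cons, Multiset.prod_singleton] at hprod
  set b : ℂ := (β : ℂ) with hb
  have hb0 : b ≠ 0 := by rw [hb]; exact_mod_cast hβ0
  have hbi : ((β⁻¹ : ℝ) : ℂ) = b⁻¹ := by rw [hb]; push_cast; rfl
  rw [hbi] at hprod
  have e1 : b * b⁻¹ = 1 := mul_inv_cancel₀ hb0
  have e2 : z₁ * z₁⁻¹ = 1 := mul_inv_cancel₀ hz10
  have hexp : P = X ^ 4 - C ((b + b⁻¹) + (z₁ + z₁⁻¹)) * X ^ 3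
      + C (2 + (b + b⁻¹) * (z₁ + z₁⁻¹)) * X ^ 2 - C ((b + b⁻¹) + (z₁ + z₁⁻¹)) * X + 1 := by
    rw [hprod]
    have f1 : (C b : ℂ[X]) * C b⁻¹ = 1 := by rw [← C_mul, e1, C_1]
    have f2 : (C z₁ : ℂ[X]) * C z₁⁻¹ = 1 := by rw [← C_mul, e2, C_1]
    have f3 : (C 2 : ℂ[X]) = 2 := rfl
    simp only [C_add, C_mul, f3]
    linear_combination (X ^ 2 - (C z₁ + C z₁⁻¹) * X + C z₁ * C z₁⁻¹) * f1 +
      (X ^ 2 - (C b + C b⁻¹) * X + 1) * f2
  have hcoef : ∀ i, ∃ k : ℤ, P.coeff i = k := by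
    intro i
    refine ⟨q.coeff i, ?_⟩
    rw [hP, hpZ, coeff_map, coeff_map]
    simp
  obtain ⟨k3, hk3⟩ := hcoef 3
  obtain ⟨k2, hk2⟩ := hcoef 2
  rw [hexp] at hk3 hk2
  simp only [coeff_add, coeff_sub, coeff_C_mul, coeff_X_pow, coeff_X, coeff_one] at hk3 hk2
  norm_num at hk3 hk2
  have hA : (b + b⁻¹) + (z₁ + z₁⁻¹) = ((-k3 : ℤ) : ℂ) := by push_cast; linear_combination -hk3
  have hB : (b + b⁻¹) * (z₁ + z₁⁻¹) = ((k2 - 2 : ℤ) : ℂ) := by push_cast; linear_combination hk2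
  have hnat : ∀ n : ℕ, ∃ k : ℤ, b ^ n + b⁻¹ ^ n + (z₁ ^ n + z₁⁻¹ ^ n) = k := by
    intro n
    obtain ⟨A, B, A', B', h⟩ := cheb_int (-k3) (k2 - 2) n
    have g1 := (h b hb0 (by rw [← hA, ← hB]; ring)).1
    have g2 := (h z₁ hz10 (by rw [← hA, ← hB]; ring)).1
    refine ⟨2 * A + B * (-k3), ?_⟩
    rw [g1, g2]
    push_cast at hA ⊢
    linear_combination (B : ℂ) * hA
  have hall : ∀ m : ℤ, ∃ k : ℤ, b ^ m + b ^ (-m) + (z₁ ^ m + z₁ ^ (-m)) = k := by
    intro m
    rcases Int.eq_nat_or_neg m with ⟨n, rfl | rfl⟩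
    · obtain ⟨k, hk⟩ := hnat n
      exact ⟨k, by simpa [zpow_neg, inv_pow] using hk⟩
    · obtain ⟨k, hk⟩ := hnat n
      refine ⟨k, ?_⟩
      rw [← hk]
      simp only [zpow_neg, inv_pow, neg_neg, zpow_natCast]
      ring
  refine ⟨z₁, hz1n, hint, hinvInt, fun m => ?_⟩
  obtain ⟨k, hk⟩ := hall m
  refine ⟨k, ?_⟩
  have hc : z₁ ^ (-m) = (starRingEnd ℂ) (z₁ ^ m) := by
    rw [zpow_neg, ← inv_zpow, hinvz, map_zpow₀]
  rw [hc, Complex.add_conj] at hk
  have := congrArg Complex.re hk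
  rw [hb] at this
  simp only [← Complex.ofReal_zpow, ← Complex.ofReal_add, Complex.ofReal_re, Complex.intCast_re] at this
  exact this

end Crest.Agent.R104
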