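import Crest.Agent.R104.Prob

set_option autoImplicit false
open Real MeasureTheory Crest.AnalysisR

namespace Crest.Agent.R104

lemma decomp {β : ℝ} {α : ℂ} (hβ : 1 < β) (hα : ‖α‖ = 1) {a : ℝ} {ℓ : ℕ} {δ : ℝ}
    (ha : 0 < a) (hal : a ≤ β ^ ℓ) (htr : Tr β α a ℓ δ) (g N : ℕ) :
    ∃ w : ℕ → ℝ, (∀ p, |w p| ≤ 13 * δ) ∧ ∀ ω : ℕ → Bool,
      (cos (2 * π * (a * β ^ (N + g) * signedPowerSum β⁻¹ ω)) -
        cos (lin (Finset.Ico N (N + (ℓ + 2 * g)))
          (fun p => 2 * π * (a * β ^ ((N : ℤ) + g - p))) ω)) ^ 2 ≤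
      4 * (1 - cos (lin (Finset.range N) w ω)) + 2 * (14 * (β / (β - 1)) * (β ^ g)⁻¹) ^ 2 := by
  classical
  have hβ0 : 0 < β := by linarith
  have hb1 : 0 < β - 1 := by linarith
  have hc0 : 0 ≤ β⁻¹ := by positivity
  have hc1 : β⁻¹ < 1 := inv_lt_one_of_one_lt₀ hβ
  choose kk ss hh hss hhh hrefl using htr.reflect hα
  set B := β / (β - 1) with hB
  have hB0 : 0 ≤ B := by positivity
  have hBe : (1 - β⁻¹)⁻¹ = B := by rw [hB]; field_simp
  have hδ : 0 ≤ δ := by have := (abs_nonneg _).trans (hhh 0); linarith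
  refine ⟨fun p => 2 * π * hh ((N : ℤ) + g - p), fun p => ?_, fun ω => ?_⟩
  · rw [abs_mul, abs_of_pos (by positivity : 0 < 2 * π)]
    have hpi2 : 2 * π * 2 ≤ 13 := by nlinarith [pi_lt_d2]
    calc _ ≤ 2 * π * (2 * δ) := by gcongr; exact hhh _
      _ = 2 * π * 2 * δ := by ring
      _ ≤ _ := by gcongr
  set H := ℓ + 2 * g with hH
  have hU : ∀ p : ℕ, a * β ^ (N + g) * (sg (ω p) * β⁻¹ ^ p) =
      sg (ω p) * (a * β ^ ((N : ℤ) + g - p)) := by
    intro p
    rw [zpow_sub₀ hβ0.ne', ← Nat.cast_add, zpow_natCast, zpow_natCast, inv_pow]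
    field_simp
  set t := ∑' q, sg (ω (q + (N + H))) * β⁻¹ ^ q with ht
  have htb : |t| ≤ B := hBe ▸ abs_tsum_sg_le hc0 hc1 (fun q => ω (q + (N + H)))
  have hsum : signedPowerSum β⁻¹ ω =
      ∑ p ∈ Finset.range (N + H), sg (ω p) * β⁻¹ ^ p + β⁻¹ ^ (N + H) * t := by
    rw [sps_eq, ← (summable_sg hc0 hc1 ω).sum_add_tsum_nat_add (N + H), ht, ← tsum_mul_left]
    congr 2
    ext q
    rw [pow_add]; ring
  set r1 := ∑ p ∈ Finset.range N,
    sg (ω p) * (ss ((N : ℤ) + g - p) * (a * β ^ (-(ℓ : ℤ) - ((N : ℤ) + g - p)))) with hr1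
  set r2 := a * β ^ (N + g) * (β⁻¹ ^ (N + H) * t) with hr2
  set K : ℤ := ∑ p ∈ Finset.range N, (if ω p then 1 else -1) * kk ((N : ℤ) + g - p) with hK
  have hKc : (K : ℝ) = ∑ p ∈ Finset.range N, sg (ω p) * kk ((N : ℤ) + g - p) := by
    rw [hK]; push_cast
    refine Finset.sum_congr rfl fun p _ => ?_
    cases ω p <;> simp [sg]
  have hmain : 2 * π * (a * β ^ (N + g) * signedPowerSum β⁻¹ ω) =
      lin (Finset.Ico N (N + H)) (fun p => 2 * π * (a * β ^ ((N : ℤ) + g - p))) ω +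
      lin (Finset.range N) (fun p => 2 * π * hh ((N : ℤ) + g - p)) ω + 2 * π * (r1 + r2)
        + K * (2 * π) := by
    rw [hsum, mul_add (a * β ^ (N + g)), ← hr2, Finset.mul_sum]
    simp_rw [hU]
    rw [← Finset.sum_range_add_sum_Ico _ (Nat.le_add_right N H), hKc, hr1]
    have e1 : ∑ p ∈ Finset.range N, sg (ω p) * (a * β ^ ((N : ℤ) + g - p)) =
        ∑ p ∈ Finset.range N, sg (ω p) * kk ((N : ℤ) + g - p) + ∑ p ∈ Finset.range N,
          sg (ω p) * (ss ((N : ℤ) + g - p) * (a * β ^ (-(ℓ : ℤ) - ((N : ℤ) + g - p)))) +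
          ∑ p ∈ Finset.range N, sg (ω p) * hh ((N : ℤ) + g - p) := by
      rw [← Finset.sum_add_distrib, ← Finset.sum_add_distrib]
      refine Finset.sum_congr rfl fun p _ => ?_
      rw [hrefl ((N : ℤ) + g - p)]; ring
    have e2 : ∀ (S : Finset ℕ) (v : ℕ → ℝ), lin S (fun p => 2 * π * v p) ω =
        2 * π * ∑ p ∈ S, sg (ω p) * v p := by
      intro S v
      rw [lin, Finset.mul_sum]
      exact Finset.sum_congr rfl fun p _ => by ring
    rw [e1, e2, e2]
    ring
  rw [hmain, cos_add_int_mul_two_pi]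
  refine (cos_add_sub_sq_le _ _ _).trans ?_
  have b1 : |r1| ≤ (β ^ g)⁻¹ * B := by
    refine (Finset.abs_sum_le_sum_abs _ _).trans ?_
    have hinj : Set.InjOn (fun p : ℕ => (p : ℤ) - N - g) (Finset.range N) := by
      intro x _ y _ hxy
      simp only at hxy
      omega
    have h1 := sum_zpow_le hβ ((Finset.range N).image fun p : ℕ => (p : ℤ) - N - g) (-g) (by
      intro x hx
      obtain ⟨y, hy, rfl⟩ := Finset.mem_image.1 hx
      have := Finset.mem_range.1 hy
      omega)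
    rw [Finset.sum_image (f := fun m : ℤ => β ^ m) hinj, zpow_neg, zpow_natCast] at h1
    refine le_trans (Finset.sum_le_sum fun p _ => ?_) h1
    have h4 : |ss ((N : ℤ) + g - p)| = 1 := by rcases hss ((N : ℤ) + g - p) with h | h <;> simp [h]
    rw [abs_mul, abs_mul, abs_sg, h4, one_mul, one_mul, abs_of_pos (by positivity)]
    calc _ ≤ β ^ (ℓ : ℤ) * β ^ (-(ℓ : ℤ) - ((N : ℤ) + g - p)) := by rw [zpow_natCast]; gcongr
      _ = _ := by rw [← zpow_add₀ hβ0.ne']; congr 1; ring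
  have b2 : |r2| ≤ (β ^ g)⁻¹ * B := by
    rw [hr2, ← mul_assoc, abs_mul, abs_of_pos (by positivity)]
    gcongr
    calc _ ≤ β ^ ℓ * β ^ (N + g) * β⁻¹ ^ (N + H) := by gcongr
      _ = _ := by rw [hH, two_mul]; simp only [pow_add, inv_pow]; field_simp
  have b3 : |2 * π * (r1 + r2)| ≤ 14 * B * (β ^ g)⁻¹ := by
    rw [abs_mul, abs_of_pos (by positivity : 0 < 2 * π)]
    have hpi : 2 * π ≤ 7 := by nlinarith [pi_lt_d2]
    have := abs_add_le r1 r2
    calc _ ≤ 7 * (2 * ((β ^ g)⁻¹ * B)) := by gcongr; linarith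
      _ = _ := by ring
  have b4 : (2 * π * (r1 + r2)) ^ 2 ≤ (14 * B * (β ^ g)⁻¹) ^ 2 := by
    rw [← sq_abs (2 * π * (r1 + r2))]; gcongr
  linarith

lemma abs_integral_cos_le (σ R M : ℝ) (hM : 0 < M) (hσ : M ≤ |σ|) :
    |∫ u in (-R)..R, cos (2 * π * (σ * u))| ≤ 1 / M := by
  have hσ0 : σ ≠ 0 := by intro h; rw [h] at hσ; simp at hσ; linarith
  have hc : 2 * π * σ ≠ 0 := by positivity
  have e : (fun u => cos (2 * π * (σ * u))) = fun u => cos (2 * π * σ * u) := by
    ext u; ring_nf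
  rw [e, intervalIntegral.integral_comp_mul_left (fun x => cos x) hc, integral_cos, smul_eq_mul,
    abs_mul, abs_inv, abs_mul, abs_of_pos (by positivity : 0 < 2 * π)]
  have h1 : |sin (2 * π * σ * R) - sin (2 * π * σ * -R)| ≤ 2 := by
    refine (abs_sub _ _).trans ?_
    linarith [abs_sin_le_one (2 * π * σ * R), abs_sin_le_one (2 * π * σ * -R)]
  have h2 : 2 * M ≤ 2 * π * |σ| := by nlinarith [pi_gt_three]
  calc _ ≤ (2 * M)⁻¹ * 2 := by gcongr
    _ = _ := by field_simp

lemma leb_sq_le (n : ℕ) (τ : ℕ → ℝ) (R : ℝ) (hR : 0 ≤ R) (h1 : ∀ i, (n : ℝ) ≤ τ i)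
    (h2 : ∀ i j, i ≠ j → (n : ℝ) ≤ |τ i - τ j|) :
    ∫ u in (-R)..R, (∑ i ∈ Finset.range n, cos (2 * π * (τ i * u))) ^ 2 ≤ (2 * R + 1) * n := by
  rcases Nat.eq_zero_or_pos n with rfl | hn
  · simp
  have hn' : (0 : ℝ) < n := by exact_mod_cast hn
  have e : ∀ u, (∑ i ∈ Finset.range n, cos (2 * π * (τ i * u))) ^ 2 =
      ∑ i ∈ Finset.range n, ∑ j ∈ Finset.range n,
        cos (2 * π * (τ i * u)) * cos (2 * π * (τ j * u)) := by
    intro u; rw [← Finset.sum_mul_sum, sq]
  simp_rw [e]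
  rw [intervalIntegral.integral_finsetSum (fun i _ => Continuous.intervalIntegrable
    (by fun_prop) _ _)]
  have key : ∀ i j, ∫ u in (-R)..R, cos (2 * π * (τ i * u)) * cos (2 * π * (τ j * u)) ≤
      (if i = j then 2 * R else 0) + 1 / n := by
    intro i j
    split_ifs with hij
    · subst hij
      have : ∫ u in (-R)..R, cos (2 * π * (τ i * u)) * cos (2 * π * (τ i * u)) ≤
          ∫ _u in (-R)..R, (1 : ℝ) :=
        intervalIntegral.integral_mono_on (by linarith)
          (Continuous.intervalIntegrable (by fun_prop) _ _)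
          (Continuous.intervalIntegrable (by fun_prop) _ _)
          (fun u _ => by nlinarith [cos_sq_le_one (2 * π * (τ i * u))])
      simp at this
      have : 0 ≤ 1 / (n : ℝ) := by positivity
      linarith
    · have e2 : ∀ u, cos (2 * π * (τ i * u)) * cos (2 * π * (τ j * u)) =
          (cos (2 * π * ((τ i + τ j) * u)) + cos (2 * π * ((τ i - τ j) * u))) / 2 := by
        intro u
        rw [add_mul, sub_mul, mul_add, mul_sub, cos_add, cos_sub]; ring
      simp_rw [e2]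
      rw [intervalIntegral.integral_div, intervalIntegral.integral_add
        (Continuous.intervalIntegrable (by fun_prop) _ _)
        (Continuous.intervalIntegrable (by fun_prop) _ _)]
      have g1 := abs_integral_cos_le (τ i + τ j) R n hn'
        (le_trans (by linarith [h1 i, h1 j]) (le_abs_self _))
      have g2 := abs_integral_cos_le (τ i - τ j) R n hn' (h2 i j hij)
      linarith [le_abs_self (∫ u in (-R)..R, cos (2 * π * ((τ i + τ j) * u))),
        le_abs_self (∫ u in (-R)..R, cos (2 * π * ((τ i - τ j) * u)))]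
  calc _ ≤ ∑ i ∈ Finset.range n, (2 * R + 1) := by
        refine Finset.sum_le_sum fun i hi => ?_
        rw [intervalIntegral.integral_finsetSum (fun i _ => Continuous.intervalIntegrable
          (by fun_prop) _ _)]
        refine (Finset.sum_le_sum fun j _ => key i j).trans ?_
        rw [Finset.sum_add_distrib, Finset.sum_ite_eq, if_pos hi]
        simp only [Finset.sum_const, Finset.card_range, nsmul_eq_mul]
        rw [mul_one_div_cancel hn'.ne']
    _ = _ := by simp; ring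

lemma mutuallySingular_of_forall {X : Type*} [MeasurableSpace X] (μ ν : Measure X)
    (h : ∀ ε : ℝ, 0 < ε → ∃ E : Set X, MeasurableSet E ∧ μ Eᶜ ≤ ENNReal.ofReal ε ∧
      ν E ≤ ENNReal.ofReal ε) : μ.MutuallySingular ν := by
  choose E hE h1 h2 using fun n : ℕ => h ((1 / 2) ^ n) (by positivity)
  have hs : ∑' n : ℕ, ENNReal.ofReal ((1 / 2 : ℝ) ^ n) ≠ ⊤ := by
    rw [← ENNReal.ofReal_tsum_of_nonneg (fun _ => by positivity) summable_geometric_two]
    exact ENNReal.ofReal_ne_top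
  refine ⟨Filter.limsup (fun n => (E n)ᶜ) Filter.atTop,
    MeasurableSet.measurableSet_limsup (fun n => (hE n).compl), ?_, ?_⟩
  · exact measure_limsup_atTop_eq_zero (ne_top_of_le_ne_top hs (ENNReal.tsum_le_tsum h1))
  · refine measure_mono_null ?_
      (measure_limsup_atTop_eq_zero (s := E) (ne_top_of_le_ne_top hs (ENNReal.tsum_le_tsum h2)))
    intro x hx
    rw [Set.mem_compl_iff, Filter.mem_limsup_iff_frequently_mem, Filter.not_frequently] at hx
    rw [Filter.mem_limsup_iff_frequently_mem]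
    exact (hx.mono fun n hn => by simpa using hn).frequently

end Crest.Agent.R104
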