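import Crest.Agent.R104.Rec2

set_option autoImplicit false
open Real

namespace Crest.Agent.R104

lemma exp_le_cos_sq {κ y : ℝ} (hκ : 0 < κ) (h : κ ≤ |cos y|) :
    exp (-(sin y ^ 2 / κ ^ 2)) ≤ cos y ^ 2 := by
  have h1 : κ ^ 2 ≤ cos y ^ 2 := by rw [← sq_abs (cos y)]; gcongr
  have h2 : 0 < cos y ^ 2 := lt_of_lt_of_le (by positivity) h1
  rw [← le_log_iff_exp_le h2]
  have h3 := one_sub_inv_le_log_of_pos h2
  have h4 : sin y ^ 2 / cos y ^ 2 ≤ sin y ^ 2 / κ ^ 2 := by gcongr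
  have h5 : 1 - (cos y ^ 2)⁻¹ = -(sin y ^ 2 / cos y ^ 2) := by
    have hc : cos y ≠ 0 := by intro h0; rw [h0] at h2; simp at h2
    field_simp
    linarith [sin_sq_add_cos_sq y]
  linarith

lemma Inv.iter {β : ℝ} {α : ℂ} (hβ : 1 < β) (hα : ‖α‖ = 1) {κ x₀ F₀ : ℝ} (h : Inv β α κ x₀ F₀)
    (hx : β / (β - 1) ≤ x₀) (hx2 : 266 ^ 4 ≤ x₀) (r : ℕ) :
    ∃ x F : ℝ, x₀ ≤ x ∧ Inv β α κ x F ∧
      (F + 4000 * (3 + β / (β - 1))) * log x₀ ≤
        (24 / 25) ^ r * (F₀ + 4000 * (3 + β / (β - 1))) * log x := by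
  set C := 4000 * (3 + β / (β - 1)) with hC
  have hC0 : 0 ≤ C := by have : 0 < β - 1 := by linarith
                         positivity
  have hF0 : 0 ≤ F₀ := by obtain ⟨a, ℓ, hg, -⟩ := h; exact hg.F_nonneg
  have hl0 : 0 ≤ log x₀ := log_nonneg (le_trans (by norm_num) hx2)
  induction r with
  | zero => exact ⟨x₀, F₀, le_rfl, h, by simp⟩
  | succ r ih =>
    obtain ⟨x, F, h1, h2, h3⟩ := ih
    obtain ⟨x', g1, g2, g3⟩ := h2.step hβ hα (hx.trans h1) (hx2.trans h1)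
    have hx0 : 0 < x := lt_of_lt_of_le (by norm_num) (hx2.trans h1)
    refine ⟨x', _, by linarith, g3, ?_⟩
    have hK : 0 ≤ (24 / 25 : ℝ) ^ r * (F₀ + C) := by positivity
    calc (54 / 25 * F + C + C) * log x₀ ≤ 54 / 25 * ((F + C) * log x₀) := by
          nlinarith [mul_nonneg hC0 hl0]
      _ ≤ 54 / 25 * ((24 / 25) ^ r * (F₀ + C) * log x) := by gcongr
      _ = 24 / 25 * ((24 / 25) ^ r * (F₀ + C)) * (9 / 4 * log x) := by ring
      _ ≤ 24 / 25 * ((24 / 25) ^ r * (F₀ + C)) * log x' := by gcongr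
      _ = _ := by ring

theorem key {β : ℝ} {α : ℂ} (hβ : 1 < β) (hα : ‖α‖ = 1) (h1 : IsIntegral ℤ β)
    (h2 : IsIntegral ℤ β⁻¹)
    (htr : ∀ m : ℤ, ∃ k : ℤ, β ^ m + β ^ (-m) + 2 * (α ^ m).re = k) (X : ℝ) :
    ∃ (x a : ℝ) (ℓ : ℕ), X ≤ x ∧ 1 ≤ a ∧ a ≤ β ^ ℓ ∧ Tr β α a ℓ (x ^ 3)⁻¹ ∧
      (ℓ : ℝ) ≤ 36 * x ^ 2 ∧
      ∀ W : Finset ℤ, (∀ m ∈ W, (m : ℝ) ≤ x + 1) →
        x⁻¹ ≤ ∏ m ∈ W, cos (2 * π * (a * β ^ m)) ^ 2 := by
  classical
  obtain ⟨a₀, ℓ₀, κ₀, F₀, hκ₀, hg₀⟩ := exists_good_pos hβ hα h1 h2 htr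
  set B := β / (β - 1) with hB
  have hB0 : 0 ≤ B := by have : 0 < β - 1 := by linarith
                         positivity
  obtain ⟨x₀, F₁, hx₀, hinv⟩ := exists_inv_start hβ hα hκ₀ hg₀ (max X (max B (266 ^ 4)))
  have hX : X ≤ x₀ := (le_max_left _ _).trans hx₀
  have hxB : B ≤ x₀ := ((le_max_left _ _).trans (le_max_right _ _)).trans hx₀
  have hx2 : 266 ^ 4 ≤ x₀ := ((le_max_right _ _).trans (le_max_right _ _)).trans hx₀
  set κ := κ₀ / 4 with hκ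
  have hκp : 0 < κ := by positivity
  set C := 4000 * (3 + B) with hC
  have hC0 : 12000 ≤ C := by rw [hC]; linarith
  have hF1 : 0 ≤ F₁ := by obtain ⟨a, ℓ, hg, -⟩ := hinv; exact hg.F_nonneg
  have hl0 : 0 < log x₀ := log_pos (lt_of_lt_of_le (by norm_num) hx2)
  obtain ⟨r, hr⟩ := exists_pow_lt_of_lt_one
    (show 0 < κ ^ 2 / 3 * log x₀ / (F₁ + C) by positivity) (show (24 / 25 : ℝ) < 1 by norm_num)
  obtain ⟨x, F, g1, ⟨a, ℓ, hg, hℓ⟩, g3⟩ := hinv.iter hβ hα hxB hx2 r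
  have hx1 : 1000 ≤ x := le_trans (by norm_num) (hx2.trans g1)
  have hx0 : 0 < x := by linarith
  have hl : 0 < log x := log_pos (by linarith)
  have hΦ : 3 * (F + C) / κ ^ 2 ≤ log x := by
    rw [lt_div_iff₀ (by positivity)] at hr
    have : (F + C) * log x₀ ≤ κ ^ 2 / 3 * log x * log x₀ := by
      calc _ ≤ (24 / 25) ^ r * (F₁ + C) * log x := g3
        _ ≤ κ ^ 2 / 3 * log x₀ * log x := by gcongr
        _ = _ := by ring
    have := le_of_mul_le_mul_right this hl0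
    rw [div_le_iff₀ (by positivity)]
    linarith
  refine ⟨x, a, ℓ, hX.trans g1, hg.one_le, hg.le_pow, hg.tr, hℓ, fun W hW => ?_⟩
  have hF := hg.F_nonneg
  have hT : ∑ m ∈ W, sin (2 * π * (a * β ^ m)) ^ 2 ≤ 3 * (F + C) := by
    have hcard : ((W.filter fun m => ¬ 2 * m ≤ -(ℓ : ℤ)).card : ℝ) ≤ x ^ 6 := by
      have hsub : (W.filter fun m => ¬ 2 * m ≤ -(ℓ : ℤ)) ⊆
          Finset.Icc (-(ℓ : ℤ)) (⌈x⌉₊ + 1 : ℕ) := by
        intro m hm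
        obtain ⟨hm1, hm2⟩ := Finset.mem_filter.1 hm
        rw [Finset.mem_Icc]
        refine ⟨by omega, ?_⟩
        have := hW m hm1
        have h3 := Nat.le_ceil x
        have : (m : ℝ) ≤ ((⌈x⌉₊ + 1 : ℕ) : ℤ) := by push_cast; linarith
        exact_mod_cast this
      have := Finset.card_le_card hsub
      rw [Int.card_Icc] at this
      have e : (((⌈x⌉₊ + 1 : ℕ) : ℤ) + 1 - -(ℓ : ℤ)).toNat = ⌈x⌉₊ + 2 + ℓ := by omega
      rw [e] at this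
      have h3 : (⌈x⌉₊ : ℝ) ≤ x + 1 := (Nat.ceil_lt_add_one hx0.le).le
      have h4 : ((W.filter fun m => ¬ 2 * m ≤ -(ℓ : ℤ)).card : ℝ) ≤ ⌈x⌉₊ + 2 + ℓ := by
        exact_mod_cast this
      have hx4 : 38 ≤ x ^ 4 := by
        calc (38 : ℝ) ≤ x ^ 1 := by simp; linarith
          _ ≤ x ^ 4 := pow_le_pow_right₀ (by linarith) (by norm_num)
      calc _ ≤ 38 * x ^ 2 := by nlinarith
        _ ≤ x ^ 4 * x ^ 2 := by gcongr
        _ = _ := by ring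
    have := hg.full hα W _ hcard
    have e : 3360 * (x ^ 3)⁻¹ ^ 2 * x ^ 6 = 3360 := by field_simp
    rw [e] at this
    linarith
  have hκ' : ∀ m : ℤ, κ ≤ |cos (2 * π * (a * β ^ m))| := fun m =>
    le_trans (le_add_of_nonneg_right (by positivity)) (hg.kap m)
  calc x⁻¹ = exp (-log x) := by rw [exp_neg, exp_log hx0]
    _ ≤ exp (∑ m ∈ W, -(sin (2 * π * (a * β ^ m)) ^ 2 / κ ^ 2)) := by
        gcongr
        rw [Finset.sum_neg_distrib, ← Finset.sum_div, neg_le_neg_iff]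
        refine le_trans ?_ hΦ
        gcongr
    _ = ∏ m ∈ W, exp (-(sin (2 * π * (a * β ^ m)) ^ 2 / κ ^ 2)) := exp_sum _ _
    _ ≤ _ := Finset.prod_le_prod (fun _ _ => (exp_pos _).le)
        (fun m _ => exp_le_cos_sq hκp (hκ' m))

end Crest.Agent.R104
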