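import Crest.Agent.R104.Decomp
import Crest.Agent.R104.Rec3
import Crest.Agent.R104.Alg

set_option autoImplicit false
open Real MeasureTheory Crest.AnalysisR

namespace Crest.Agent.R104

lemma second_moment {β : ℝ} {α : ℂ} (hβ : 1 < β) (hα : ‖α‖ = 1) {a : ℝ} {ℓ : ℕ} {δ : ℝ}
    (ha : 0 < a) (hal : a ≤ β ^ ℓ) (htr : Tr β α a ℓ δ) (g n : ℕ) :
    ∫ ω, (∑ i ∈ Finset.range n,
        cos (2 * π * (a * β ^ (i * (ℓ + 2 * g) + g) * signedPowerSum β⁻¹ ω)) -
        n * ∏ q ∈ Finset.range (ℓ + 2 * g), cos (2 * π * (a * β ^ ((g : ℤ) - q)))) ^ 2 ∂PP ≤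
      2 * n ^ 2 * (338 * (n * (ℓ + 2 * g)) * δ ^ 2 + 2 * (14 * (β / (β - 1)) * (β ^ g)⁻¹) ^ 2)
        + 2 * n := by
  have hβ0 : 0 < β := by linarith
  have hcont := continuous_sps (c := β⁻¹) (by positivity) (inv_lt_one_of_one_lt₀ hβ)
  set H := ℓ + 2 * g with hH
  set b := ∏ q ∈ Finset.range H, cos (2 * π * (a * β ^ ((g : ℤ) - q))) with hb
  set ρ := 2 * (14 * (β / (β - 1)) * (β ^ g)⁻¹) ^ 2 with hρ
  choose w hw hdec using fun i : ℕ => decomp hβ hα ha hal htr g (i * H)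
  set S : ℕ → Finset ℕ := fun i => Finset.Ico (i * H) (i * H + H) with hS
  set v : ℕ → ℕ → ℝ := fun i p => 2 * π * (a * β ^ (((i * H : ℕ) : ℤ) + g - p)) with hv
  have hvar := integral_var_le n S v b (by
    intro i j hij
    rw [Finset.disjoint_left]
    intro p h1 h2
    simp only [hS, Finset.mem_Ico] at h1 h2
    rcases lt_or_gt_of_ne hij with h | h
    · have := Nat.mul_le_mul_right H (Nat.succ_le_of_lt h)
      rw [Nat.succ_mul] at this; omega
    · have := Nat.mul_le_mul_right H (Nat.succ_le_of_lt h)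
      rw [Nat.succ_mul] at this; omega) (by
    intro i
    simp only [hS, hv, hb]
    rw [Finset.prod_Ico_eq_prod_range, Nat.add_sub_cancel_left]
    refine Finset.prod_congr rfl fun q _ => ?_
    congr 4
    push_cast; ring)
  set X : ℕ → (ℕ → Bool) → ℝ := fun i ω =>
    cos (2 * π * (a * β ^ (i * H + g) * signedPowerSum β⁻¹ ω)) with hX
  have hXc : ∀ i, Continuous (X i) := fun i => by simp only [hX]; fun_prop
  have hpt : ∀ ω, (∑ i ∈ Finset.range n, X i ω - n * b) ^ 2 ≤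
      2 * n * ∑ i ∈ Finset.range n, (4 * (1 - cos (lin (Finset.range (i * H)) (w i) ω)) + ρ) +
      2 * (∑ i ∈ Finset.range n, cos (lin (S i) (v i) ω) - n * b) ^ 2 := by
    intro ω
    have h1 : (∑ i ∈ Finset.range n, (X i ω - cos (lin (S i) (v i) ω))) ^ 2 ≤
        n * ∑ i ∈ Finset.range n, (X i ω - cos (lin (S i) (v i) ω)) ^ 2 := by
      simpa using sq_sum_le_card_mul_sum_sq (s := Finset.range n)
        (f := fun i => X i ω - cos (lin (S i) (v i) ω))
    have h2 : ∑ i ∈ Finset.range n, (X i ω - cos (lin (S i) (v i) ω)) ^ 2 ≤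
        ∑ i ∈ Finset.range n, (4 * (1 - cos (lin (Finset.range (i * H)) (w i) ω)) + ρ) :=
      Finset.sum_le_sum fun i _ => hdec i ω
    have h3 := h1.trans (mul_le_mul_of_nonneg_left h2 (Nat.cast_nonneg n))
    rw [Finset.sum_sub_distrib] at h3
    nlinarith [sq_nonneg (∑ i ∈ Finset.range n, X i ω - ∑ i ∈ Finset.range n,
      cos (lin (S i) (v i) ω) - (∑ i ∈ Finset.range n, cos (lin (S i) (v i) ω) - n * b))]
  refine (integral_mono (integ (by fun_prop)) (integ (by fun_prop)) hpt).trans ?_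
  rw [integral_add (integ (by fun_prop)) (integ (by fun_prop)), integral_const_mul,
    integral_const_mul, integral_finsetSum _ (fun i _ => integ (by fun_prop))]
  have h4 : ∀ i ∈ Finset.range n,
      ∫ ω, (4 * (1 - cos (lin (Finset.range (i * H)) (w i) ω)) + ρ) ∂PP ≤
      338 * (n * (ℓ + 2 * g)) * δ ^ 2 + ρ := by
    intro i hi
    rw [integral_add (integ (by fun_prop)) (integ (by fun_prop)), integral_const_mul,
      integral_sub (integ (by fun_prop)) (integ (by fun_prop)), integral_cos_lin]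
    have g1 := one_sub_prod_cos_le (Finset.range (i * H)) (w i)
    have g2 : ∑ p ∈ Finset.range (i * H), w i p ^ 2 / 2 ≤
        ∑ _p ∈ Finset.range (i * H), (13 * δ) ^ 2 / 2 := by
      refine Finset.sum_le_sum fun p _ => ?_
      rw [← sq_abs (w i p)]
      gcongr
      exact hw i p
    have g3 : ((i * H : ℕ) : ℝ) ≤ n * (ℓ + 2 * g) := by
      have := Nat.mul_le_mul_right H (Finset.mem_range.1 hi).le
      rw [hH] at this ⊢
      exact_mod_cast this
    simp only [Finset.sum_const, Finset.card_range, nsmul_eq_mul] at g2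
    have g4 : ((i * H : ℕ) : ℝ) * ((13 * δ) ^ 2 / 2) ≤ n * (ℓ + 2 * g) * ((13 * δ) ^ 2 / 2) := by
      gcongr
    simp only [integral_const, probReal_univ, smul_eq_mul, one_mul]
    nlinarith
  have h5 := Finset.sum_le_sum h4
  simp only [Finset.sum_const, Finset.card_range, nsmul_eq_mul] at h5
  have h6 := mul_le_mul_of_nonneg_left h5 (by positivity : (0 : ℝ) ≤ 2 * n)
  nlinarith

theorem singular_of_data {β : ℝ} {α : ℂ} (hβ : 1 < β) (hα : ‖α‖ = 1) (h1 : IsIntegral ℤ β)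
    (h2 : IsIntegral ℤ β⁻¹)
    (htr : ∀ m : ℤ, ∃ k : ℤ, β ^ m + β ^ (-m) + 2 * (α ^ m).re = k) :
    (bernoulliConvolution β⁻¹).MutuallySingular (volume : Measure ℝ) := by
  classical
  have hβ0 : 0 < β := by linarith
  have hb1 : 0 < β - 1 := by linarith
  have hc0 : 0 ≤ β⁻¹ := by positivity
  have hc1 : β⁻¹ < 1 := inv_lt_one_of_one_lt₀ hβ
  have hcont := continuous_sps hc0 hc1
  set B := β / (β - 1) with hB
  have hB0 : 0 ≤ B := by positivity
  have hBe : (1 - β⁻¹)⁻¹ = B := by rw [hB]; field_simp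
  refine mutuallySingular_of_forall _ _ fun ε hε => ?_
  obtain ⟨g0, hg0⟩ : ∃ g0 : ℕ, ∀ g ≥ g0, (g : ℝ) ^ 2 ≤ β ^ g := by
    have := (tendsto_pow_const_div_const_pow_of_one_lt 2 hβ).eventually (ge_mem_nhds one_pos)
    obtain ⟨g0, hg0⟩ := Filter.eventually_atTop.1 this
    exact ⟨g0, fun g hg => by
      have := hg0 g hg
      rwa [div_le_one (by positivity)] at this⟩
  obtain ⟨x, a, ℓ, hX, ha, hal, htr', hℓ, hW⟩ := key hβ hα h1 h2 htr
    (max (max (max B 1) g0) (max (8 * (54081 + 392 * B ^ 4) / ε) (4 * (2 * B + 1) / ε)))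
  have hxB : B ≤ x := ((le_max_left _ _).trans ((le_max_left _ _).trans (le_max_left _ _))).trans hX
  have hx1 : 1 ≤ x := ((le_max_right _ _).trans ((le_max_left _ _).trans (le_max_left _ _))).trans hX
  have hxg : (g0 : ℝ) ≤ x := ((le_max_right _ _).trans (le_max_left _ _)).trans hX
  have hxe1 : 8 * (54081 + 392 * B ^ 4) / ε ≤ x :=
    ((le_max_left _ _).trans (le_max_right _ _)).trans hX
  have hxe2 : 4 * (2 * B + 1) / ε ≤ x := ((le_max_right _ _).trans (le_max_right _ _)).trans hX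
  have hx0 : 0 < x := by linarith
  obtain ⟨hG1, hG2⟩ := inv_pow_ceil_le hβ hxB
  set g := ⌈x⌉₊ with hg
  have hgx : x ≤ g := Nat.le_ceil _
  have hgx' : (g : ℝ) ≤ x + 1 := (Nat.ceil_lt_add_one hx0.le).le
  have hgg : (g : ℝ) ^ 2 ≤ β ^ g := hg0 g (by exact_mod_cast hxg.trans hgx)
  have hsm := second_moment hβ hα (by linarith) hal htr' g (g ^ 2)
  set H := ℓ + 2 * g with hH
  set n := g ^ 2 with hn
  have hnx : x ^ 2 ≤ n := by rw [hn]; push_cast; gcongr
  have hnx' : (n : ℝ) ≤ 4 * x ^ 2 := by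
    rw [hn]; push_cast
    calc (g : ℝ) ^ 2 ≤ (2 * x) ^ 2 := by gcongr; linarith
      _ = _ := by ring
  have hn0 : (0 : ℝ) < n := lt_of_lt_of_le (by positivity) hnx
  set b := ∏ q ∈ Finset.range H, cos (2 * π * (a * β ^ ((g : ℤ) - q))) with hb
  have hb2 : x⁻¹ ≤ b ^ 2 := by
    have hinj : Set.InjOn (fun q : ℕ => (g : ℤ) - q) (Finset.range H) := by
      intro p _ q _ h
      simp only at h
      omega
    have := hW ((Finset.range H).image fun q : ℕ => (g : ℤ) - q) (by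
      intro m hm
      obtain ⟨q, -, rfl⟩ := Finset.mem_image.1 hm
      push_cast
      have : (0 : ℝ) ≤ q := by positivity
      linarith)
    rw [Finset.prod_image (f := fun m : ℤ => cos (2 * π * (a * β ^ m)) ^ 2) hinj,
      Finset.prod_pow] at this
    exact this
  set τ : ℕ → ℝ := fun i => a * β ^ (i * H + g) with hτ
  have hτ1 : ∀ i, (n : ℝ) ≤ τ i := by
    intro i
    calc (n : ℝ) = 1 * (g : ℝ) ^ 2 := by rw [hn]; push_cast; ring
      _ ≤ a * β ^ g := by gcongr
      _ ≤ _ := by simp only [hτ]; gcongr; exacts [hβ.le, Nat.le_add_left _ _]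
  have hτ2 : ∀ i j, i < j → (n : ℝ) ≤ τ j - τ i := by
    intro i j hij
    have e1 : i * H + g + g ≤ j * H + g := by
      have := Nat.mul_le_mul_right H (Nat.succ_le_of_lt hij)
      rw [Nat.succ_mul] at this; omega
    have e2 : τ i * 2 ≤ τ j := by
      calc τ i * 2 ≤ τ i * β ^ g := by gcongr
        _ = a * β ^ (i * H + g + g) := by simp only [hτ]; ring
        _ ≤ _ := by simp only [hτ]; gcongr; exact hβ.le
    linarith [hτ1 i]
  have hleb := leb_sq_le n τ B hB0 hτ1 (fun i j hij => by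
    rcases lt_or_gt_of_ne hij with h | h
    · rw [abs_sub_comm]; exact (hτ2 i j h).trans (le_abs_self _)
    · exact (hτ2 j i h).trans (le_abs_self _))
  set Ψ : ℝ → ℝ := fun u => ∑ i ∈ Finset.range n, cos (2 * π * (τ i * u)) with hΨ
  have hΨc : Continuous Ψ := by simp only [hΨ]; fun_prop
  set T := (n * b) ^ 2 / 4 with hT
  have hT1 : (n : ℝ) ^ 2 / (4 * x) ≤ T := by
    calc _ = (n : ℝ) ^ 2 * x⁻¹ / 4 := by field_simp
      _ ≤ (n : ℝ) ^ 2 * b ^ 2 / 4 := by gcongr
      _ = _ := by rw [hT]; ring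
  have hT0 : 0 < T := lt_of_lt_of_le (by positivity) hT1
  have hmeas : MeasurableSet {u | T ≤ Ψ u ^ 2} :=
    (isClosed_le continuous_const (by fun_prop)).measurableSet
  refine ⟨{u | T ≤ Ψ u ^ 2} ∩ Set.Icc (-B) B, hmeas.inter measurableSet_Icc, ?_, ?_⟩
  · rw [bernoulliConvolution, Measure.map_apply hcont.measurable
      (hmeas.inter measurableSet_Icc).compl]
    change PP _ ≤ _
    have hsub : signedPowerSum β⁻¹ ⁻¹' ({u | T ≤ Ψ u ^ 2} ∩ Set.Icc (-B) B)ᶜ ⊆
        {ω | T ≤ (Ψ (signedPowerSum β⁻¹ ω) - n * b) ^ 2} := by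
      intro ω hω
      have hI : signedPowerSum β⁻¹ ω ∈ Set.Icc (-B) B := by
        rw [Set.mem_Icc, ← abs_le, sps_eq, ← hBe]
        exact abs_tsum_sg_le hc0 hc1 ω
      have : ¬ T ≤ Ψ (signedPowerSum β⁻¹ ω) ^ 2 := fun h => hω ⟨h, hI⟩
      simp only [Set.mem_ofPred_eq]
      nlinarith [sq_nonneg (n * b - 2 * Ψ (signedPowerSum β⁻¹ ω))]
    refine (measure_mono hsub).trans ?_
    rw [← ofReal_measureReal]
    refine ENNReal.ofReal_le_ofReal ?_
    have hM := mul_meas_ge_le_integral_of_nonneg (μ := PP)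
      (f := fun ω => (Ψ (signedPowerSum β⁻¹ ω) - n * b) ^ 2)
      (Filter.Eventually.of_forall fun _ => sq_nonneg _) (integ (by fun_prop)) T
    have hM2 := hM.trans hsm
    have e1 : 338 * ((n : ℝ) * (ℓ + 2 * g)) * (x ^ 3)⁻¹ ^ 2 ≤ 54080 / x ^ 2 := by
      calc _ ≤ 338 * (4 * x ^ 2 * (40 * x ^ 2)) * (x ^ 3)⁻¹ ^ 2 := by gcongr; nlinarith
        _ = _ := by field_simp; norm_num
    have e2 : 2 * (14 * B * (β ^ g)⁻¹) ^ 2 ≤ 392 * B ^ 4 / x ^ 2 := by
      calc _ ≤ 2 * (14 * B * (B / x)) ^ 2 := by gcongr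
        _ = _ := by field_simp; ring
    have e3 : 2 * (n : ℝ) ≤ 2 * n ^ 2 * (1 / x ^ 2) := by
      rw [mul_one_div, le_div_iff₀ (by positivity)]; nlinarith
    have e4 : 2 * (n : ℝ) ^ 2 * (54080 / x ^ 2 + 392 * B ^ 4 / x ^ 2) + 2 * n ^ 2 * (1 / x ^ 2) ≤
        T * ε := by
      rw [div_le_iff₀ hε] at hxe1
      calc _ = (n : ℝ) ^ 2 / (4 * x) * (8 * (54081 + 392 * B ^ 4) / x) := by field_simp; ring
        _ ≤ T * ε := by
          gcongr
          rw [div_le_iff₀ hx0]; linarith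
    refine le_of_mul_le_mul_left (hM2.trans (le_trans ?_ e4)) hT0
    gcongr
  · rw [← Measure.restrict_apply hmeas, ← ofReal_measureReal]
    refine ENNReal.ofReal_le_ofReal ?_
    have hM := mul_meas_ge_le_integral_of_nonneg (μ := volume.restrict (Set.Icc (-B) B))
      (f := fun u => Ψ u ^ 2) (Filter.Eventually.of_forall fun _ => sq_nonneg _)
      (Continuous.integrableOn_Icc (by fun_prop)) T
    rw [integral_Icc_eq_integral_Ioc, ← intervalIntegral.integral_of_le (by linarith)] at hM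
    have hM2 := hM.trans hleb
    have e4 : (2 * B + 1) * n ≤ T * ε := by
      rw [div_le_iff₀ hε] at hxe2
      calc (2 * B + 1) * n = (n : ℝ) ^ 2 / (4 * x) * (4 * (2 * B + 1) * x / n) := by field_simp
        _ ≤ T * ε := by
          gcongr
          rw [div_le_iff₀ hn0]
          calc 4 * (2 * B + 1) * x ≤ x * ε * x := by gcongr
            _ = ε * x ^ 2 := by ring
            _ ≤ _ := by gcongr
    exact le_of_mul_le_mul_left (hM2.trans e4) hT0

end Crest.Agent.R104
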