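import Mathlib

set_option autoImplicit false
open Real

namespace Crest.Agent.R104

lemma sum_zpow_le {β : ℝ} (hβ : 1 < β) (S : Finset ℤ) (M : ℤ) (hS : ∀ m ∈ S, m ≤ M) :
    ∑ m ∈ S, β ^ m ≤ β ^ M * (β / (β - 1)) := by
  have hβ0 : 0 < β := by linarith
  have hr0 : 0 ≤ β⁻¹ := by positivity
  have hr1 : β⁻¹ < 1 := inv_lt_one_of_one_lt₀ hβ
  have hinj : Set.InjOn (fun m : ℤ => (M - m).toNat) S := by
    intro a ha b hb h
    have h1 := hS a ha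
    have h2 := hS b hb
    simp only at h
    omega
  have h1 : ∑ m ∈ S, β ^ m = ∑ m ∈ S, β ^ M * β⁻¹ ^ (M - m).toNat := by
    refine Finset.sum_congr rfl fun m hm => ?_
    have h1 := hS m hm
    rw [← zpow_natCast, Int.toNat_of_nonneg (by omega), inv_zpow', ← zpow_add₀ hβ0.ne']
    congr 1; ring
  rw [h1, ← Finset.mul_sum]
  gcongr
  rw [← Finset.sum_image (f := fun i : ℕ => β⁻¹ ^ i) hinj]
  calc _ ≤ ∑' i : ℕ, β⁻¹ ^ i :=
        (summable_geometric_of_lt_one hr0 hr1).sum_le_tsum _ (fun _ _ => by positivity)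
    _ = (1 - β⁻¹)⁻¹ := tsum_geometric_of_lt_one hr0 hr1
    _ = β / (β - 1) := by field_simp

lemma abs_sin_add_le (x h : ℝ) : |sin (2 * π * (x + h))| ≤ |sin (2 * π * x)| + 2 * π * |h| := by
  have := abs_sin_sub_sin_le (2 * π * (x + h)) (2 * π * x)
  have e : 2 * π * (x + h) - 2 * π * x = 2 * π * h := by ring
  rw [e, abs_mul, abs_of_pos (by positivity : 0 < 2 * π)] at this
  have := abs_sub_abs_le_abs_sub (sin (2 * π * (x + h))) (sin (2 * π * x))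
  linarith

lemma abs_cos_add_ge (x h : ℝ) : |cos (2 * π * x)| - 2 * π * |h| ≤ |cos (2 * π * (x + h))| := by
  have := abs_cos_sub_cos_le (2 * π * x) (2 * π * (x + h))
  have e : 2 * π * x - 2 * π * (x + h) = 2 * π * (-h) := by ring
  rw [e, abs_mul, abs_of_pos (by positivity : 0 < 2 * π), abs_neg] at this
  have := abs_sub_abs_le_abs_sub (cos (2 * π * x)) (cos (2 * π * (x + h)))
  linarith

lemma sin_sq_add_le (x h : ℝ) :
    sin (2 * π * (x + h)) ^ 2 ≤ 21 / 20 * sin (2 * π * x) ^ 2 + 840 * h ^ 2 := by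
  have h1 := abs_sin_add_le x h
  have h2 : |sin (2 * π * (x + h))| ^ 2 ≤ (|sin (2 * π * x)| + 2 * π * |h|) ^ 2 := by
    gcongr
  have hpi : π ^ 2 ≤ 10 := by nlinarith [pi_lt_d2, pi_pos]
  have h3 : (2 * π * |h|) ^ 2 ≤ 40 * h ^ 2 := by
    rw [mul_pow, sq_abs, mul_pow]; nlinarith [sq_nonneg h]
  rw [sq_abs] at h2
  have h4 := sq_abs (sin (2 * π * x))
  nlinarith [sq_nonneg (|sin (2 * π * x)| - 20 * (2 * π * |h|))]

lemma sin_int_shift (x : ℝ) (k : ℤ) (s : ℝ) (hs : s = 1 ∨ s = -1) :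
    sin (2 * π * (k + s * x)) ^ 2 = sin (2 * π * x) ^ 2 := by
  have e : 2 * π * (k + s * x) = 2 * π * (s * x) + k * (2 * π) := by ring
  rw [e, sin_add_int_mul_two_pi]
  rcases hs with rfl | rfl
  · simp
  · simp

lemma cos_int_shift (x : ℝ) (k : ℤ) (s : ℝ) (hs : s = 1 ∨ s = -1) :
    cos (2 * π * (k + s * x)) = cos (2 * π * x) := by
  have e : 2 * π * (k + s * x) = 2 * π * (s * x) + k * (2 * π) := by ring
  rw [e, cos_add_int_mul_two_pi]
  rcases hs with rfl | rfl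
  · simp
  · simp

/-- The trace data of `t = ∏ (X^{j_i} - 1)`: `a = t(β)`, `c = t(α)`, degree `ℓ`. -/
def Tr (β : ℝ) (α : ℂ) (a : ℝ) (ℓ : ℕ) (δ : ℝ) : Prop :=
  ∃ (c : ℂ) (s : ℝ), (s = 1 ∨ s = -1) ∧ ‖c‖ ≤ δ ∧
    ∀ m : ℤ, ∃ k : ℤ, a * β ^ m + s * (a * β ^ (-(ℓ : ℤ) - m)) + 2 * (c * α ^ m).re = k

structure Good (β : ℝ) (α : ℂ) (a : ℝ) (ℓ : ℕ) (δ κ F : ℝ) : Prop where
  one_le : 1 ≤ a
  le_pow : a ≤ β ^ ℓ
  tr : Tr β α a ℓ δ
  kap : ∀ m : ℤ, κ ≤ |cos (2 * π * (a * β ^ m))|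
  half : ∀ S : Finset ℤ, (∀ m ∈ S, 2 * m ≤ -(ℓ : ℤ)) →
    ∑ m ∈ S, sin (2 * π * (a * β ^ m)) ^ 2 ≤ F

/-- reflection form of the trace identity -/
lemma Tr.reflect {β : ℝ} {α : ℂ} (hα : ‖α‖ = 1) {a : ℝ} {ℓ : ℕ} {δ : ℝ} (h : Tr β α a ℓ δ)
    (m : ℤ) : ∃ (k : ℤ) (s h : ℝ), (s = 1 ∨ s = -1) ∧ |h| ≤ 2 * δ ∧
      a * β ^ m = (k + s * (a * β ^ (-(ℓ : ℤ) - m))) + h := by
  obtain ⟨c, s, hs, hc, htr⟩ := h
  obtain ⟨k, hk⟩ := htr m
  refine ⟨k, -s, -(2 * (c * α ^ m).re), ?_, ?_, by linarith⟩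
  · rcases hs with rfl | rfl <;> simp
  · rw [abs_neg, abs_mul, abs_two]
    have := Complex.abs_re_le_norm (c * α ^ m)
    rw [norm_mul, norm_zpow, hα, one_zpow, mul_one] at this
    linarith

lemma Good.mono {β : ℝ} {α : ℂ} {a : ℝ} {ℓ : ℕ} {δ κ F δ' κ' F' : ℝ}
    (h : Good β α a ℓ δ κ F) (h1 : δ ≤ δ') (h2 : κ' ≤ κ) (h3 : F ≤ F') :
    Good β α a ℓ δ' κ' F' := by
  obtain ⟨c, s, hs, hc, htr⟩ := h.tr
  exact ⟨h.one_le, h.le_pow, ⟨c, s, hs, hc.trans h1, htr⟩, fun m => h2.trans (h.kap m),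
    fun S hS => (h.half S hS).trans h3⟩

lemma Good.F_nonneg {β : ℝ} {α : ℂ} {a : ℝ} {ℓ : ℕ} {δ κ F : ℝ}
    (h : Good β α a ℓ δ κ F) : 0 ≤ F := by simpa using h.half ∅ (by simp)

lemma Good.full {β : ℝ} {α : ℂ} (hα : ‖α‖ = 1) {a : ℝ} {ℓ : ℕ} {δ κ F : ℝ}
    (h : Good β α a ℓ δ κ F) (S : Finset ℤ) (N : ℝ)
    (hN : ((S.filter fun m => ¬ 2 * m ≤ -(ℓ : ℤ)).card : ℝ) ≤ N) :
    ∑ m ∈ S, sin (2 * π * (a * β ^ m)) ^ 2 ≤ 41 / 20 * F + 3360 * δ ^ 2 * N := by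
  classical
  rw [← Finset.sum_filter_add_sum_filter_not S (fun m => 2 * m ≤ -(ℓ : ℤ))]
  have h1 := h.half (S.filter fun m => 2 * m ≤ -(ℓ : ℤ)) (fun m hm => (Finset.mem_filter.1 hm).2)
  set T := S.filter fun m => ¬ 2 * m ≤ -(ℓ : ℤ) with hT
  have h2 : ∑ m ∈ T, sin (2 * π * (a * β ^ m)) ^ 2 ≤
      ∑ m ∈ T, (21 / 20 * sin (2 * π * (a * β ^ (-(ℓ : ℤ) - m))) ^ 2 + 3360 * δ ^ 2) := by
    refine Finset.sum_le_sum fun m _ => ?_
    obtain ⟨k, s, hh, hs, hb, e⟩ := h.tr.reflect hα m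
    rw [e]
    refine (sin_sq_add_le _ _).trans ?_
    rw [sin_int_shift _ _ _ hs]
    have : hh ^ 2 ≤ (2 * δ) ^ 2 := by rw [← sq_abs hh]; gcongr
    nlinarith
  rw [Finset.sum_add_distrib, ← Finset.mul_sum, Finset.sum_const, nsmul_eq_mul] at h2
  have h3 : ∑ m ∈ T, sin (2 * π * (a * β ^ (-(ℓ : ℤ) - m))) ^ 2 ≤ F := by
    have hinj : Set.InjOn (fun m : ℤ => -(ℓ : ℤ) - m) T := by
      intro x _ y _ hxy
      simp only at hxy
      omega
    rw [← Finset.sum_image (f := fun m : ℤ => sin (2 * π * (a * β ^ m)) ^ 2) hinj]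
    refine h.half _ fun m hm => ?_
    obtain ⟨x, hx, rfl⟩ := Finset.mem_image.1 hm
    have := (Finset.mem_filter.1 hx).2
    omega
  have h4 : (T.card : ℝ) * (3360 * δ ^ 2) ≤ N * (3360 * δ ^ 2) := by gcongr
  nlinarith

lemma Good.step {β : ℝ} {α : ℂ} (hβ : 1 < β) (hα : ‖α‖ = 1) {a : ℝ} {ℓ : ℕ} {δ κ F : ℝ}
    (h : Good β α a ℓ δ κ F) (j G : ℕ) (η : ℝ) (hj : ℓ + 2 * G ≤ j) (hj2 : 2 ≤ β ^ j)
    (hη : ‖α ^ j - 1‖ ≤ η) :
    Good β α (a * (β ^ j - 1)) (ℓ + j) (δ * η) (κ - 7 * (β ^ G)⁻¹ - 13 * (δ * η))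
      (54 / 25 * F + 4000 * (δ ^ 2 * (j + 1) + β / (β - 1))) := by
  classical
  have hβ0 : 0 < β := by linarith
  have hα0 : α ≠ 0 := by intro h0; rw [h0] at hα; simp at hα
  have ha := h.one_le
  have hal := h.le_pow
  have hsplit : ∀ m : ℤ, a * (β ^ j - 1) * β ^ m = a * β ^ (m + j) + -(a * β ^ m) := by
    intro m; rw [zpow_add₀ hβ0.ne', zpow_natCast]; ring
  have hsmall : ∀ m : ℤ, a * β ^ m ≤ β ^ ((ℓ : ℤ) + m) := by
    intro m; rw [zpow_add₀ hβ0.ne', zpow_natCast]; gcongr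
  have hpos : ∀ m : ℤ, 0 < a * β ^ m := fun m => by positivity
  have htr : Tr β α (a * (β ^ j - 1)) (ℓ + j) (δ * η) := by
    obtain ⟨c, s, hs, hc, htr⟩ := h.tr
    refine ⟨c * (α ^ j - 1), -s, by rcases hs with rfl | rfl <;> simp, ?_, fun m => ?_⟩
    · rw [norm_mul]
      exact mul_le_mul hc hη (norm_nonneg _) ((norm_nonneg _).trans hc)
    · obtain ⟨k1, hk1⟩ := htr (m + j)
      obtain ⟨k2, hk2⟩ := htr m
      refine ⟨k1 - k2, ?_⟩
      rw [hsplit, hsplit]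
      have e1 : -((ℓ + j : ℕ) : ℤ) - m + j = -(ℓ : ℤ) - m := by push_cast; ring
      have e2 : -((ℓ + j : ℕ) : ℤ) - m = -(ℓ : ℤ) - (m + j) := by push_cast; ring
      have e3 : c * (α ^ j - 1) * α ^ m = c * α ^ (m + j) - c * α ^ m := by
        rw [zpow_add₀ hα0, zpow_natCast]; ring
      rw [e1, e2, e3, Complex.sub_re]
      push_cast
      linarith
  have hpi : 2 * π ≤ 7 := by nlinarith [pi_lt_d2]
  have hpi2 : 2 * π * 2 ≤ 13 := by nlinarith [pi_lt_d2]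
  have hδη : 0 ≤ δ * η := by
    obtain ⟨c, s, hs, hc, htr⟩ := htr
    exact (norm_nonneg _).trans hc
  have hk1 : ∀ m : ℤ, 2 * m ≤ -((ℓ + j : ℕ) : ℤ) →
      κ - 7 * (β ^ G)⁻¹ ≤ |cos (2 * π * (a * (β ^ j - 1) * β ^ m))| := by
    intro m hm
    rw [hsplit]
    refine le_trans ?_ (abs_cos_add_ge _ _)
    have h1 := h.kap (m + j)
    have h2 : |-(a * β ^ m)| ≤ (β ^ G)⁻¹ := by
      rw [abs_neg, abs_of_pos (hpos m), ← zpow_natCast, ← zpow_neg]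
      refine (hsmall m).trans (zpow_le_zpow_right₀ hβ.le ?_)
      push_cast at hm; omega
    have h3 : 2 * π * |-(a * β ^ m)| ≤ 7 * (β ^ G)⁻¹ := by gcongr
    linarith
  refine ⟨by nlinarith, ?_, htr, fun m => ?_, fun S hS => ?_⟩
  · rw [pow_add]
    exact mul_le_mul hal (by linarith) (by linarith) (by positivity)
  · by_cases hm : 2 * m ≤ -((ℓ + j : ℕ) : ℤ)
    · have := hk1 m hm; linarith
    · obtain ⟨k, s, hh, hs, hb, e⟩ := htr.reflect hα m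
      rw [e]
      refine le_trans ?_ (abs_cos_add_ge _ _)
      rw [cos_int_shift _ _ _ hs]
      have h1 := hk1 (-((ℓ + j : ℕ) : ℤ) - m) (by omega)
      have h3 : 2 * π * |hh| ≤ 13 * (δ * η) := by
        calc 2 * π * |hh| ≤ 2 * π * (2 * (δ * η)) := by gcongr
          _ = 2 * π * 2 * (δ * η) := by ring
          _ ≤ _ := by gcongr
      linarith
  · have h2 : ∑ m ∈ S, sin (2 * π * (a * (β ^ j - 1) * β ^ m)) ^ 2 ≤
        ∑ m ∈ S, (21 / 20 * sin (2 * π * (a * β ^ (m + j))) ^ 2 + 840 * β ^ ((ℓ : ℤ) + m)) := by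
      refine Finset.sum_le_sum fun m hm => ?_
      rw [hsplit]
      refine (sin_sq_add_le _ _).trans ?_
      have h1 : β ^ ((ℓ : ℤ) + m) ≤ 1 := by
        refine zpow_le_one_of_nonpos₀ hβ.le ?_
        have := hS m hm
        push_cast at this; omega
      have h3 := hsmall m
      have h4 := hpos m
      have : (-(a * β ^ m)) ^ 2 ≤ β ^ ((ℓ : ℤ) + m) := by nlinarith
      linarith
    rw [Finset.sum_add_distrib, ← Finset.mul_sum, ← Finset.mul_sum] at h2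
    have hinj : Set.InjOn (fun m : ℤ => m + j) S := by
      intro x _ y _ hxy
      simp only at hxy
      omega
    have hinj2 : Set.InjOn (fun m : ℤ => (ℓ : ℤ) + m) S := by
      intro x _ y _ hxy
      simp only at hxy
      omega
    have h3 : ∑ m ∈ S, sin (2 * π * (a * β ^ (m + j))) ^ 2 ≤
        41 / 20 * F + 3360 * δ ^ 2 * (j + 1) := by
      rw [← Finset.sum_image (f := fun m : ℤ => sin (2 * π * (a * β ^ m)) ^ 2) hinj]
      refine h.full hα _ _ ?_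
      have hsub : ((S.image fun m : ℤ => m + j).filter fun m => ¬ 2 * m ≤ -(ℓ : ℤ)) ⊆
          Finset.Icc (-(ℓ : ℤ) / 2) (-(ℓ : ℤ) / 2 + j) := by
        intro x hx
        obtain ⟨hx1, hx2⟩ := Finset.mem_filter.1 hx
        obtain ⟨y, hy, rfl⟩ := Finset.mem_image.1 hx1
        have := hS y hy
        rw [Finset.mem_Icc]
        push_cast at this
        omega
      have := Finset.card_le_card hsub
      rw [Int.card_Icc] at this
      have e : (-(ℓ : ℤ) / 2 + j + 1 - -(ℓ : ℤ) / 2).toNat = j + 1 := by omega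
      rw [e] at this
      exact_mod_cast this
    have h4 : ∑ m ∈ S, β ^ ((ℓ : ℤ) + m) ≤ β / (β - 1) := by
      rw [← Finset.sum_image (f := fun m : ℤ => β ^ m) hinj2]
      have := sum_zpow_le hβ (S.image fun m : ℤ => (ℓ : ℤ) + m) 0 (by
        intro x hx
        obtain ⟨y, hy, rfl⟩ := Finset.mem_image.1 hx
        have := hS y hy
        push_cast at this; omega)
      simpa using this
    have hF := h.F_nonneg
    have hB : 0 ≤ β / (β - 1) := by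
      have : 0 < β - 1 := by linarith
      positivity
    have hd : 0 ≤ δ ^ 2 * (j + 1) := by positivity
    nlinarith

end Crest.Agent.R104
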