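import Crest.Prelude.Def_BernoulliConv
import Crest.Agent.R104.Step

set_option autoImplicit false
open Real MeasureTheory Crest.AnalysisR

namespace Crest.Agent.R104

instance instProbFairCoin : IsProbabilityMeasure fairCoin :=
  ⟨by simp [fairCoin, ENNReal.inv_two_add_inv_two]⟩

noncomputable def PP : Measure (ℕ → Bool) := Measure.infinitePi (fun _ : ℕ => fairCoin)

instance instProbPP : IsProbabilityMeasure PP := by unfold PP; infer_instance

def sg (b : Bool) : ℝ := if b then 1 else -1

lemma abs_sg (b : Bool) : |sg b| = 1 := by cases b <;> simp [sg]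

noncomputable def lin (S : Finset ℕ) (v : ℕ → ℝ) (ω : ℕ → Bool) : ℝ := ∑ p ∈ S, sg (ω p) * v p

lemma continuous_sg (p : ℕ) : Continuous fun ω : ℕ → Bool => sg (ω p) :=
  (continuous_of_discreteTopology (f := sg)).comp (continuous_apply p)

@[fun_prop]
lemma continuous_lin (S : Finset ℕ) (v : ℕ → ℝ) : Continuous (lin S v) :=
  continuous_finsetSum _ fun p _ => (continuous_sg p).mul continuous_const

lemma integ {E : Type*} [NormedAddCommGroup E] {f : (ℕ → Bool) → E} (hf : Continuous f) :
    Integrable f PP :=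
  hf.integrable_of_hasCompactSupport (HasCompactSupport.of_compactSpace f)

lemma integral_fairCoin (f : Bool → ℂ) : ∫ b, f b ∂fairCoin = (f true + f false) / 2 := by
  rw [integral_fintype (Integrable.of_finite)]
  simp [fairCoin, Measure.real]
  ring

lemma integral_cos_lin (S : Finset ℕ) (v : ℕ → ℝ) :
    ∫ ω, cos (lin S v ω) ∂PP = ∏ p ∈ S, cos (v p) := by
  have h1 : ∫ ω, Complex.exp ((lin S v ω : ℝ) * Complex.I) ∂PP = ∏ p ∈ S, (cos (v p) : ℂ) := by
    have e : ∀ ω : ℕ → Bool, Complex.exp ((lin S v ω : ℝ) * Complex.I) =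
        (fun y : (Π _ : S, Bool) => ∏ p : S, Complex.exp ((sg (y p) * v p : ℝ) * Complex.I))
          (S.restrict ω) := by
      intro ω
      simp only [lin, Finset.restrict]
      rw [Finset.prod_coe_sort S (fun p => Complex.exp ((sg (ω p) * v p : ℝ) * Complex.I)),
        ← Complex.exp_sum, ← Finset.sum_mul]
      push_cast; rfl
    simp_rw [e]
    unfold PP
    rw [integral_restrict_infinitePi (μ := fun _ : ℕ => fairCoin) (s := S)
      (f := fun y : (Π _ : S, Bool) => ∏ p : S, Complex.exp ((sg (y p) * v p : ℝ) * Complex.I))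
      (Measurable.of_discrete.aestronglyMeasurable)]
    rw [integral_fintype_prod_eq_prod
      (fun (p : S) (b : Bool) => Complex.exp ((sg b * v p : ℝ) * Complex.I))]
    rw [← Finset.prod_coe_sort S (fun p => (cos (v p) : ℂ))]
    refine Finset.prod_congr rfl fun p _ => ?_
    rw [integral_fairCoin]
    simp only [sg, if_true, Bool.false_eq_true, if_false]
    rw [Complex.ofReal_cos, Complex.cos]
    push_cast
    congr 2 <;> ring_nf
  have h2 := congrArg Complex.re h1
  have h3 := integral_re (𝕜 := ℂ) (integ (f := fun ω => Complex.exp ((lin S v ω : ℝ) * Complex.I))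
    (by fun_prop))
  simp only [RCLike.re_to_complex, Complex.exp_ofReal_mul_I_re] at h3
  rw [h3, h2, ← Complex.ofReal_prod, Complex.ofReal_re]

lemma integral_cos_mul_cos {S T : Finset ℕ} (hST : Disjoint S T) (v w : ℕ → ℝ) :
    ∫ ω, cos (lin S v ω) * cos (lin T w ω) ∂PP =
      (∏ p ∈ S, cos (v p)) * ∏ p ∈ T, cos (w p) := by
  classical
  have key : ∀ ε : ℝ, (ε = 1 ∨ ε = -1) → ∫ ω, cos (lin S v ω + ε * lin T w ω) ∂PP =
      (∏ p ∈ S, cos (v p)) * ∏ p ∈ T, cos (w p) := by
    intro ε hε
    have hS : ∀ p ∈ S, (if p ∈ S then v p else ε * w p) = v p := fun p hp => if_pos hp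
    have hT : ∀ p ∈ T, (if p ∈ S then v p else ε * w p) = ε * w p := fun p hp =>
      if_neg (Finset.disjoint_right.1 hST hp)
    have e : ∀ ω, lin S v ω + ε * lin T w ω =
        lin (S ∪ T) (fun p => if p ∈ S then v p else ε * w p) ω := by
      intro ω
      simp only [lin]
      rw [Finset.sum_union hST, Finset.mul_sum]
      congr 1
      · exact Finset.sum_congr rfl fun p hp => by rw [hS p hp]
      · exact Finset.sum_congr rfl fun p hp => by rw [hT p hp]; ring
    simp_rw [e]
    rw [integral_cos_lin, Finset.prod_union hST]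
    congr 1
    · exact Finset.prod_congr rfl fun p hp => by rw [hS p hp]
    · refine Finset.prod_congr rfl fun p hp => ?_
      rw [hT p hp]
      rcases hε with rfl | rfl <;> simp
  have e : ∀ ω, cos (lin S v ω) * cos (lin T w ω) =
      (cos (lin S v ω + 1 * lin T w ω) + cos (lin S v ω + (-1) * lin T w ω)) / 2 := by
    intro ω
    simp only [one_mul, neg_mul, cos_add, cos_neg, sin_neg]
    ring
  simp_rw [e]
  rw [integral_div, integral_add (integ (by fun_prop)) (integ (by fun_prop)),
    key 1 (Or.inl rfl), key (-1) (Or.inr rfl)]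
  ring

lemma one_sub_prod_cos_le (S : Finset ℕ) (w : ℕ → ℝ) :
    1 - ∏ p ∈ S, cos (w p) ≤ ∑ p ∈ S, w p ^ 2 / 2 := by
  classical
  induction S using Finset.induction_on with
  | empty => simp
  | insert p S hp ih =>
    rw [Finset.prod_insert hp, Finset.sum_insert hp]
    have h1 : ∏ p ∈ S, cos (w p) ≤ 1 := by
      refine (le_abs_self _).trans ?_
      rw [Finset.abs_prod]
      exact Finset.prod_le_one (fun _ _ => abs_nonneg _) (fun _ _ => abs_cos_le_one _)
    have h2 := one_sub_sq_div_two_le_cos (x := w p)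
    have h3 := cos_le_one (w p)
    nlinarith

lemma integral_var_le (n : ℕ) (S : ℕ → Finset ℕ) (v : ℕ → ℕ → ℝ) (b : ℝ)
    (hS : ∀ i j, i ≠ j → Disjoint (S i) (S j)) (hb : ∀ i, ∏ p ∈ S i, cos (v i p) = b) :
    ∫ ω, (∑ i ∈ Finset.range n, cos (lin (S i) (v i) ω) - n * b) ^ 2 ∂PP ≤ n := by
  have e : ∀ ω, (∑ i ∈ Finset.range n, cos (lin (S i) (v i) ω) - n * b) ^ 2 =
      ∑ i ∈ Finset.range n, ∑ j ∈ Finset.range n,
        (cos (lin (S i) (v i) ω) - b) * (cos (lin (S j) (v j) ω) - b) := by
    intro ω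
    rw [← Finset.sum_mul_sum, Finset.sum_sub_distrib]
    simp [sq]
  simp_rw [e]
  rw [integral_finsetSum _ (fun i _ => integ (by fun_prop))]
  have h1 : ∀ i j, ∫ ω, (cos (lin (S i) (v i) ω) - b) * (cos (lin (S j) (v j) ω) - b) ∂PP =
      ∫ ω, cos (lin (S i) (v i) ω) * cos (lin (S j) (v j) ω) ∂PP - b ^ 2 := by
    intro i j
    have e : ∀ ω, (cos (lin (S i) (v i) ω) - b) * (cos (lin (S j) (v j) ω) - b) =
        cos (lin (S i) (v i) ω) * cos (lin (S j) (v j) ω) - b * cos (lin (S i) (v i) ω)
          - b * cos (lin (S j) (v j) ω) + b ^ 2 := fun ω => by ring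
    simp_rw [e]
    rw [integral_add (integ (by fun_prop)) (integ (by fun_prop)),
      integral_sub (integ (by fun_prop)) (integ (by fun_prop)),
      integral_sub (integ (by fun_prop)) (integ (by fun_prop)), integral_const_mul,
      integral_const_mul, integral_cos_lin, integral_cos_lin, hb, hb]
    simp
    ring
  calc _ ≤ ∑ i ∈ Finset.range n, (1 : ℝ) := by
        refine Finset.sum_le_sum fun i hi => ?_
        rw [integral_finsetSum _ (fun i _ => integ (by fun_prop)),
          Finset.sum_eq_single_of_mem i hi]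
        · rw [h1]
          have : ∫ ω, cos (lin (S i) (v i) ω) * cos (lin (S i) (v i) ω) ∂PP ≤ ∫ _ω, (1 : ℝ) ∂PP :=
            integral_mono (integ (by fun_prop)) (integ (by fun_prop))
              (fun ω => by simp only; nlinarith [cos_sq_le_one (lin (S i) (v i) ω)])
          simp at this
          nlinarith [sq_nonneg b]
        · intro j _ hj
          rw [h1, integral_cos_mul_cos (hS i j hj.symm), hb, hb]
          ring
    _ = n := by simp

lemma sps_eq (c : ℝ) (ω : ℕ → Bool) : signedPowerSum c ω = ∑' n, sg (ω n) * c ^ n := by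
  unfold signedPowerSum
  congr 1
  ext n
  cases ω n <;> simp [sg]

lemma continuous_sps {c : ℝ} (h0 : 0 ≤ c) (h1 : c < 1) : Continuous (signedPowerSum c) := by
  have : signedPowerSum c = fun ω => ∑' n, sg (ω n) * c ^ n := funext (sps_eq c)
  rw [this]
  refine continuous_tsum (fun n => (continuous_sg n).mul continuous_const)
    (summable_geometric_of_lt_one h0 h1) (fun n ω => ?_)
  rw [norm_mul, Real.norm_eq_abs, abs_sg, one_mul, Real.norm_eq_abs, abs_of_nonneg (by positivity)]

lemma abs_tsum_sg_le {c : ℝ} (h0 : 0 ≤ c) (h1 : c < 1) (ω : ℕ → Bool) :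
    |∑' n, sg (ω n) * c ^ n| ≤ (1 - c)⁻¹ := by
  rw [← Real.norm_eq_abs]
  refine tsum_of_norm_bounded (hasSum_geometric_of_lt_one h0 h1) (fun n => ?_)
  rw [norm_mul, Real.norm_eq_abs, abs_sg, one_mul, Real.norm_eq_abs, abs_of_nonneg (by positivity)]

lemma summable_sg {c : ℝ} (h0 : 0 ≤ c) (h1 : c < 1) (ω : ℕ → Bool) :
    Summable fun n => sg (ω n) * c ^ n := by
  refine Summable.of_norm_bounded (summable_geometric_of_lt_one h0 h1) (fun n => ?_)
  rw [norm_mul, Real.norm_eq_abs, abs_sg, one_mul, Real.norm_eq_abs, abs_of_nonneg (by positivity)]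

lemma cos_add_sub_sq_le (a z r : ℝ) :
    (cos (a + z + r) - cos a) ^ 2 ≤ 4 * (1 - cos z) + 2 * r ^ 2 := by
  have h1 := abs_cos_sub_cos_le (a + z + r) (a + z)
  have e : a + z + r - (a + z) = r := by ring
  rw [e] at h1
  have h2 : (cos (a + z + r) - cos (a + z)) ^ 2 ≤ r ^ 2 := sq_le_sq.2 h1
  have h3 : (cos (a + z) - cos a) ^ 2 ≤ 2 * (1 - cos z) := by
    rw [cos_add]
    nlinarith [sin_sq_add_cos_sq a, sin_sq_add_cos_sq z,
      sq_nonneg (sin a * (cos z - 1) + cos a * sin z)]
  nlinarith [sq_nonneg (cos (a + z + r) - cos (a + z) - (cos (a + z) - cos a))]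

end Crest.Agent.R104
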