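import Crest.Agent.R104.Step

set_option autoImplicit false
open Real

namespace Crest.Agent.R104

lemma norm_pow_sub_one_le {z : ℂ} (hz : ‖z‖ = 1) (q : ℕ) : ‖z ^ q - 1‖ ≤ q * ‖z - 1‖ := by
  induction q with
  | zero => simp
  | succ q ih =>
    have e : z ^ (q + 1) - 1 = z * (z ^ q - 1) + (z - 1) := by ring
    rw [e]
    refine (norm_add_le _ _).trans ?_
    rw [norm_mul, hz, one_mul]
    push_cast
    linarith

lemma dirichlet {α : ℂ} (hα : ‖α‖ = 1) (J : ℕ) (hJ : 0 < J) :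
    ∃ j0 : ℕ, 0 < j0 ∧ j0 ≤ J ∧ ∀ L : ℕ, ∃ j : ℕ, L ≤ j ∧ j ≤ L + j0 ∧
      ‖α ^ j - 1‖ ≤ ((L / j0 + 1 : ℕ) : ℝ) * (7 / J) := by
  obtain ⟨θ, hθ⟩ := (Complex.norm_eq_one_iff α).1 hα
  obtain ⟨k, hk0, hkJ, hk⟩ := Real.exists_nat_abs_mul_sub_round_le (θ / (2 * π)) hJ
  have hJ' : (0 : ℝ) < J := by exact_mod_cast hJ
  have h1 : ‖α ^ k - 1‖ ≤ 7 / J := by
    set r := round ((k : ℝ) * (θ / (2 * π))) with hr
    have e : α ^ k = Complex.exp (Complex.I * ((2 * π * (k * (θ / (2 * π)) - r) : ℝ) : ℂ)) := by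
      rw [← hθ, ← Complex.exp_nat_mul]
      have hpi : (π : ℂ) ≠ 0 := by exact_mod_cast pi_ne_zero
      have : Complex.I * ((2 * π * (k * (θ / (2 * π)) - r) : ℝ) : ℂ) =
          k * (θ * Complex.I) + ((-r : ℤ) : ℂ) * (2 * π * Complex.I) := by
        push_cast; field_simp; ring
      rw [this, Complex.exp_add, Complex.exp_int_mul_two_pi_mul_I, mul_one]
    rw [e]
    refine Real.norm_exp_I_mul_ofReal_sub_one_le.trans ?_
    rw [Real.norm_eq_abs, abs_mul, abs_of_pos (by positivity : 0 < 2 * π)]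
    have hpi : 2 * π ≤ 7 := by nlinarith [pi_lt_d2]
    calc _ ≤ 7 * (1 / ((J : ℝ) + 1)) := by gcongr
      _ ≤ 7 * (1 / J) := by gcongr; linarith
      _ = _ := by ring
  refine ⟨k, hk0, hkJ, fun L => ⟨k * (L / k + 1), ?_, ?_, ?_⟩⟩
  · have := Nat.lt_mul_div_succ L hk0; omega
  · have := Nat.mul_div_le L k; rw [mul_add]; omega
  · rw [pow_mul]
    refine (norm_pow_sub_one_le (by rw [norm_pow, hα, one_pow]) _).trans ?_
    gcongr

lemma good_base {β : ℝ} {α : ℂ} (hβ : 1 < β)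
    (htr : ∀ m : ℤ, ∃ k : ℤ, β ^ m + β ^ (-m) + 2 * (α ^ m).re = k) :
    Good β α 1 0 1 0 (40 * (β / (β - 1))) := by
  have hβ0 : 0 < β := by linarith
  refine ⟨le_rfl, by simp, ⟨1, 1, Or.inl rfl, by simp, fun m => by simpa using htr m⟩,
    fun m => abs_nonneg _, fun S hS => ?_⟩
  have h1 := sum_zpow_le hβ S 0 (fun m hm => by have := hS m hm; simp at this; omega)
  rw [zpow_zero, one_mul] at h1
  refine le_trans ?_ (mul_le_mul_of_nonneg_left h1 (by norm_num))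
  rw [Finset.mul_sum]
  refine Finset.sum_le_sum fun m hm => ?_
  have h2 : β ^ m ≤ 1 := zpow_le_one_of_nonpos₀ hβ.le (by have := hS m hm; simp at this; omega)
  have h3 : 0 < β ^ m := by positivity
  have h4 := sin_sq_le_sq (x := 2 * π * (1 * β ^ m))
  have hpi : π ^ 2 ≤ 10 := by nlinarith [pi_lt_d2, pi_pos]
  have : (2 * π * (1 * β ^ m)) ^ 2 = 4 * π ^ 2 * (β ^ m * β ^ m) := by ring
  have h5 : β ^ m * β ^ m ≤ β ^ m := by nlinarith
  have h6 : π ^ 2 * (β ^ m * β ^ m) ≤ 10 * β ^ m := by gcongr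
  linarith

lemma cos_ge_quarter {x : ℝ} (hx : |x| ≤ 3 / 16) : 1 / 4 ≤ |cos (2 * π * x)| := by
  have h1 : cos (2 * π * x) = cos (2 * π * |x|) := by
    rw [← cos_abs, abs_mul, abs_of_pos (by positivity : 0 < 2 * π)]
  have h0 := abs_nonneg x
  have h2 := one_sub_mul_le_cos (x := 2 * π * |x|) (by positivity) (by nlinarith [pi_pos])
  have e : 2 / π * (2 * π * |x|) = 4 * |x| := by field_simp; ring
  rw [e] at h2
  rw [h1]
  exact le_trans (by linarith) (le_abs_self _)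

lemma cos_ne_zero_of_isIntegral {x : ℝ} (hx : IsIntegral ℤ x) : cos (2 * π * x) ≠ 0 := by
  intro h
  obtain ⟨k, hk⟩ := cos_eq_zero_iff.1 h
  have h1 : x = ((2 * k + 1 : ℚ) / 4 : ℚ) := by
    have := pi_pos
    push_cast
    field_simp at hk ⊢
    linarith
  rw [h1] at hx
  have h2 : IsIntegral ℤ ((2 * k + 1 : ℚ) / 4 : ℚ) :=
    (isIntegral_algebraMap_iff (A := ℚ) (B := ℝ) (algebraMap ℚ ℝ).injective).1 hx
  obtain ⟨z, hz⟩ := IsIntegrallyClosed.isIntegral_iff.1 h2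
  have h3 : (4 * z : ℚ) = 2 * k + 1 := by
    have : (z : ℚ) = (2 * k + 1) / 4 := hz
    linarith
  have h4 : 4 * z = 2 * k + 1 := by exact_mod_cast h3
  omega

lemma exists_inv_pow_le {β : ℝ} (hβ : 1 < β) {ε : ℝ} (hε : 0 < ε) :
    ∃ G : ℕ, (β ^ G)⁻¹ ≤ ε ∧ 2 ≤ β ^ G := by
  obtain ⟨G, hG⟩ := pow_unbounded_of_one_lt (max ε⁻¹ 2) hβ
  refine ⟨G, ?_, (le_max_right _ _).trans hG.le⟩
  rw [inv_le_comm₀ (by positivity) hε]
  exact (le_max_left _ _).trans hG.le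

lemma Good.upgrade {β : ℝ} {α : ℂ} (hβ : 1 < β) (hα : ‖α‖ = 1) {a : ℝ} {ℓ : ℕ} {δ κ F : ℝ}
    (h : Good β α a ℓ δ κ F) (hδ : δ ≤ 1 / 16) (hint : ∀ m : ℤ, IsIntegral ℤ (a * β ^ m)) :
    ∃ κ' : ℝ, 0 < κ' ∧ Good β α a ℓ δ κ' F := by
  have hβ0 : 0 < β := by linarith
  obtain ⟨g, hg, -⟩ := exists_inv_pow_le hβ (by norm_num : (0 : ℝ) < 1 / 16)
  have ha := h.one_le
  have hal := h.le_pow
  have hsmall : ∀ m : ℤ, m ≤ -(ℓ : ℤ) - g → |a * β ^ m| ≤ 1 / 16 := by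
    intro m hm
    rw [abs_of_pos (by positivity)]
    refine le_trans ?_ hg
    rw [← zpow_natCast, ← zpow_neg]
    calc a * β ^ m ≤ β ^ (ℓ : ℤ) * β ^ m := by rw [zpow_natCast]; gcongr
      _ = β ^ ((ℓ : ℤ) + m) := by rw [zpow_add₀ hβ0.ne']
      _ ≤ _ := zpow_le_zpow_right₀ hβ.le (by omega)
  obtain ⟨m0, -, hm0⟩ := (Finset.Icc (-(ℓ : ℤ) - g) g).exists_min_image
    (fun m => |cos (2 * π * (a * β ^ m))|) ⟨g, by simp; omega⟩
  refine ⟨min (1 / 4) |cos (2 * π * (a * β ^ m0))|,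
    lt_min (by norm_num) (abs_pos.2 (cos_ne_zero_of_isIntegral (hint m0))),
    h.one_le, h.le_pow, h.tr, fun m => ?_, h.half⟩
  by_cases h1 : m ≤ -(ℓ : ℤ) - g
  · exact (min_le_left _ _).trans (cos_ge_quarter ((hsmall m h1).trans (by norm_num)))
  by_cases h2 : m ≤ g
  · exact (min_le_right _ _).trans (hm0 m (by simp; omega))
  refine (min_le_left _ _).trans ?_
  obtain ⟨k, s, hh, hs, hb, e⟩ := h.tr.reflect hα m
  have e2 : a * β ^ m = k + 1 * (s * (a * β ^ (-(ℓ : ℤ) - m)) + hh) := by rw [e]; ring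
  rw [e2, cos_int_shift _ _ _ (Or.inl rfl)]
  refine cos_ge_quarter ((abs_add_le _ _).trans ?_)
  have h3 := hsmall (-(ℓ : ℤ) - m) (by omega)
  have h4 : |s| = 1 := by rcases hs with rfl | rfl <;> simp
  rw [abs_mul, h4]
  linarith

lemma exists_good_pos {β : ℝ} {α : ℂ} (hβ : 1 < β) (hα : ‖α‖ = 1) (h1 : IsIntegral ℤ β)
    (h2 : IsIntegral ℤ β⁻¹)
    (htr : ∀ m : ℤ, ∃ k : ℤ, β ^ m + β ^ (-m) + 2 * (α ^ m).re = k) :
    ∃ (a : ℝ) (ℓ : ℕ) (κ F : ℝ), 0 < κ ∧ Good β α a ℓ 1 κ F := by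
  obtain ⟨G, -, hG⟩ := exists_inv_pow_le hβ one_pos
  obtain ⟨j0, hj0, -, hj⟩ := dirichlet hα (112 * (G + 1)) (by omega)
  obtain ⟨j, hj1, -, hj3⟩ := hj G
  have hη : ‖α ^ j - 1‖ ≤ 1 / 16 := by
    refine hj3.trans ?_
    have : ((G / j0 + 1 : ℕ) : ℝ) ≤ G + 1 := by
      have := Nat.div_le_self G j0
      exact_mod_cast (by omega : G / j0 + 1 ≤ G + 1)
    calc _ ≤ ((G : ℝ) + 1) * (7 / ((112 * (G + 1) : ℕ) : ℝ)) := by gcongr
      _ = _ := by push_cast; field_simp; norm_num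
  have hg := (good_base hβ htr).step hβ hα j 0 (1 / 16) (by omega)
    (hG.trans (pow_le_pow_right₀ hβ.le hj1)) hη
  obtain ⟨κ, hκ, hg'⟩ := hg.upgrade hβ hα (by norm_num) (fun m => by
    refine IsIntegral.mul (isIntegral_one.mul ((h1.pow _).sub isIntegral_one)) ?_
    rcases Int.eq_nat_or_neg m with ⟨n, rfl | rfl⟩
    · rw [zpow_natCast]; exact h1.pow _
    · rw [zpow_neg, zpow_natCast, ← inv_pow]; exact h2.pow _)
  exact ⟨_, _, κ, _, hκ, hg'.mono (by norm_num) le_rfl le_rfl⟩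

end Crest.Agent.R104
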