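import Crest.Agent.R104.Rec

set_option autoImplicit false
open Real

namespace Crest.Agent.R104

/-- The invariant of the doubly exponential recursion. -/
def Inv (β : ℝ) (α : ℂ) (κ x F : ℝ) : Prop :=
  ∃ (a : ℝ) (ℓ : ℕ), Good β α a ℓ (x ^ 3)⁻¹ (κ + 2 * (7 * (β / (β - 1)) + 13) / x) F ∧
    (ℓ : ℝ) ≤ 36 * x ^ 2

lemma inv_pow_ceil_le {β x : ℝ} (hβ : 1 < β) (hx : β / (β - 1) ≤ x) :
    (β ^ ⌈x⌉₊)⁻¹ ≤ β / (β - 1) / x ∧ 2 ≤ β ^ ⌈x⌉₊ := by
  have hb : 0 < β - 1 := by linarith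
  have hB : 1 / (β - 1) ≤ β / (β - 1) := by gcongr
  have hx0 : 0 < x := lt_of_lt_of_le (by positivity) hx
  have h1 : 1 + (⌈x⌉₊ : ℝ) * (β - 1) ≤ β ^ ⌈x⌉₊ := by
    have := one_add_mul_le_pow (a := β - 1) (by linarith) ⌈x⌉₊
    simpa using this
  have h2 : x * (β - 1) ≤ (⌈x⌉₊ : ℝ) * (β - 1) := by gcongr; exact Nat.le_ceil x
  have h3 : 1 ≤ x * (β - 1) := by
    have := hB.trans hx
    rwa [div_le_iff₀ hb] at this
  refine ⟨?_, by linarith⟩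
  calc (β ^ ⌈x⌉₊)⁻¹ ≤ (x * (β - 1))⁻¹ := by gcongr; linarith
    _ = 1 / (β - 1) / x := by field_simp
    _ ≤ _ := by gcongr

lemma Inv.step {β : ℝ} {α : ℂ} (hβ : 1 < β) (hα : ‖α‖ = 1) {κ x F : ℝ} (h : Inv β α κ x F)
    (hx : β / (β - 1) ≤ x) (hx2 : 266 ^ 4 ≤ x) :
    ∃ x' : ℝ, 2 * x ≤ x' ∧ 9 / 4 * log x ≤ log x' ∧
      Inv β α κ x' (54 / 25 * F + 4000 * (3 + β / (β - 1))) := by
  obtain ⟨a, ℓ, hg, hℓ⟩ := h
  set B := β / (β - 1) with hB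
  have hB0 : 0 ≤ B := by have : 0 < β - 1 := by linarith
                         positivity
  obtain ⟨hG1, hG2⟩ := inv_pow_ceil_le hβ hx
  have hx0 : 0 < x := lt_of_lt_of_le (by norm_num) hx2
  have hx1 : 1000 ≤ x := le_trans (by norm_num) hx2
  set G := ⌈x⌉₊ with hG
  have hGx : (G : ℝ) ≤ x + 1 := (Nat.ceil_lt_add_one hx0.le).le
  obtain ⟨y, hy0, hy⟩ : ∃ y : ℝ, 0 < y ∧ y ^ 4 = x := by
    refine ⟨√(√x), by positivity, ?_⟩
    rw [show (4 : ℕ) = 2 * 2 from rfl, pow_mul, sq_sqrt (by positivity), sq_sqrt hx0.le]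
  have hy1 : 266 ≤ y := by
    by_contra hc
    push Not at hc
    have : y ^ 4 < 266 ^ 4 := by gcongr
    linarith
  set J := ⌈x ^ 6⌉₊ with hJ
  have hJ1 : x ^ 6 ≤ J := Nat.le_ceil _
  have hJ2 : (J : ℝ) ≤ x ^ 6 + 1 := (Nat.ceil_lt_add_one (by positivity)).le
  have hJ0 : 0 < J := Nat.ceil_pos.2 (by positivity)
  obtain ⟨j0, hj00, hj0J, hj⟩ := dirichlet hα J hJ0
  obtain ⟨j, hj1, hj2, hj3⟩ := hj (ℓ + 2 * G)
  set L := ℓ + 2 * G with hL
  have hLx : (L : ℝ) + 1 ≤ 38 * x ^ 2 := by rw [hL]; push_cast; nlinarith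
  have hβj : 2 ≤ β ^ j := hG2.trans (pow_le_pow_right₀ hβ.le (by omega))
  have hst := hg.step hβ hα j G _ hj1 hβj hj3
  have h7 : (7 : ℝ) / J ≤ 7 / x ^ 6 := by gcongr
  have hx6 : 1000 ≤ x ^ 6 := by
    calc (1000 : ℝ) ≤ x ^ 1 := by simpa using hx1
      _ ≤ x ^ 6 := pow_le_pow_right₀ (by linarith) (by norm_num)
  have hx4 : 38 ≤ x ^ 4 := by
    calc (38 : ℝ) ≤ x ^ 1 := by simp; linarith
      _ ≤ x ^ 4 := pow_le_pow_right₀ (by linarith) (by norm_num)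
  have hL6 : (L : ℝ) + 1 ≤ x ^ 6 := by
    calc _ ≤ 38 * x ^ 2 := hLx
      _ ≤ x ^ 4 * x ^ 2 := by gcongr
      _ = _ := by ring
  have hj0J' : (j0 : ℝ) ≤ J := by exact_mod_cast hj0J
  have hj2' : (j : ℝ) ≤ L + j0 := by exact_mod_cast hj2
  -- common finishing step
  have fin : ∀ x' : ℝ, y ^ 9 ≤ x' → (x ^ 3)⁻¹ * (((L / j0 + 1 : ℕ) : ℝ) * (7 / J)) ≤ (x' ^ 3)⁻¹ →
      ((ℓ + j : ℕ) : ℝ) ≤ 36 * x' ^ 2 → ∃ x' : ℝ, 2 * x ≤ x' ∧ 9 / 4 * log x ≤ log x' ∧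
      Inv β α κ x' (54 / 25 * F + 4000 * (3 + B)) := by
    intro x' h1 h2 h3
    have hy5 : 2 ≤ y ^ 5 := by
      calc (2 : ℝ) ≤ y ^ 1 := by simp; linarith
        _ ≤ y ^ 5 := pow_le_pow_right₀ (by linarith) (by norm_num)
    have h2x : 2 * x ≤ x' := by
      calc 2 * x = 2 * y ^ 4 := by rw [hy]
        _ ≤ y ^ 5 * y ^ 4 := by gcongr
        _ = y ^ 9 := by ring
        _ ≤ x' := h1
    have hx'0 : 0 < x' := by linarith
    refine ⟨x', h2x, ?_, a * (β ^ j - 1), ℓ + j, hst.mono h2 ?_ ?_, h3⟩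
    · calc 9 / 4 * log x = log (y ^ 9) := by rw [← hy, log_pow, log_pow]; push_cast; ring
        _ ≤ log x' := by gcongr
    · have e1 : (x' ^ 3)⁻¹ ≤ 1 / x := by
        rw [one_div]
        gcongr
        calc x ≤ x' ^ 1 := by simp; linarith
          _ ≤ x' ^ 3 := pow_le_pow_right₀ (by linarith) (by norm_num)
      have e2 : 2 * (7 * B + 13) / x' ≤ 2 * (7 * B + 13) / (2 * x) := by gcongr
      have e3 : 2 * (7 * B + 13) / (2 * x) = 7 * (B / x) + 13 * (1 / x) := by field_simp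
      have e4 : 2 * (7 * B + 13) / x = 2 * (7 * (B / x) + 13 * (1 / x)) := by field_simp
      have e5 := h2.trans e1
      rw [e4]
      linarith
    · have : (x ^ 3)⁻¹ ^ 2 * ((j : ℝ) + 1) ≤ 3 := by
        rw [inv_pow, ← pow_mul, inv_mul_le_iff₀ (by positivity)]
        norm_num
        linarith
      linarith
  by_cases hc : L ≤ j0
  · have hq : ((L / j0 + 1 : ℕ) : ℝ) ≤ 2 := by
      have : L / j0 ≤ 1 := by
        apply Nat.div_le_of_le_mul; omega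
      exact_mod_cast (by omega : L / j0 + 1 ≤ 2)
    refine fin (x ^ 3 / 3) ?_ ?_ ?_
    · have hy3 : 3 ≤ y ^ 3 := by
        calc (3 : ℝ) ≤ y ^ 1 := by simp; linarith
          _ ≤ y ^ 3 := pow_le_pow_right₀ (by linarith) (by norm_num)
      rw [← hy, le_div_iff₀ (by norm_num)]
      calc y ^ 9 * 3 ≤ y ^ 9 * y ^ 3 := by gcongr
        _ = _ := by ring
    · calc _ ≤ (x ^ 3)⁻¹ * (2 * (7 / x ^ 6)) := by gcongr
        _ = 14 * (x ^ 9)⁻¹ := by field_simp; norm_num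
        _ ≤ 27 * (x ^ 9)⁻¹ := by gcongr; norm_num
        _ = _ := by field_simp; norm_num
    · have : (ℓ : ℝ) ≤ L := by exact_mod_cast (by omega : ℓ ≤ L)
      push_cast
      have e : 36 * (x ^ 3 / 3) ^ 2 = 4 * x ^ 6 := by ring
      rw [e]
      linarith
  · have hq : ((L / j0 + 1 : ℕ) : ℝ) ≤ 38 * x ^ 2 := by
      refine le_trans ?_ hLx
      have := Nat.div_le_self L j0
      exact_mod_cast (by omega : L / j0 + 1 ≤ L + 1)
    refine fin (y ^ 9) le_rfl ?_ ?_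
    · calc _ ≤ (x ^ 3)⁻¹ * (38 * x ^ 2 * (7 / x ^ 6)) := by gcongr
        _ = 266 * (y ^ 28)⁻¹ := by rw [← hy]; field_simp; norm_num
        _ ≤ y * (y ^ 28)⁻¹ := by gcongr
        _ = _ := by field_simp
    · have h1 : (ℓ : ℝ) ≤ L := by exact_mod_cast (by omega : ℓ ≤ L)
      have h2 : (j0 : ℝ) ≤ L := by exact_mod_cast (by omega : j0 ≤ L)
      have hy5 : 2 ≤ y ^ 5 := by
        calc (2 : ℝ) ≤ y ^ 1 := by simp; linarith
          _ ≤ y ^ 5 := pow_le_pow_right₀ (by linarith) (by norm_num)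
      have h2x : 2 * x ≤ y ^ 9 := by
        calc 2 * x = 2 * y ^ 4 := by rw [hy]
          _ ≤ y ^ 5 * y ^ 4 := by gcongr
          _ = y ^ 9 := by ring
      have h3 : (2 * x) ^ 2 ≤ (y ^ 9) ^ 2 := by gcongr
      push_cast
      nlinarith

lemma exists_inv_start {β : ℝ} {α : ℂ} (hβ : 1 < β) (hα : ‖α‖ = 1) {a : ℝ} {ℓ : ℕ} {κ F : ℝ}
    (hκ : 0 < κ) (hg : Good β α a ℓ 1 κ F) (X : ℝ) :
    ∃ x F' : ℝ, X ≤ x ∧ Inv β α (κ / 4) x F' := by
  set B := β / (β - 1) with hB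
  have hB0 : 0 ≤ B := by have : 0 < β - 1 := by linarith
                         positivity
  obtain ⟨G, hG1, hG2⟩ := exists_inv_pow_le hβ (by positivity : 0 < κ / 56)
  set L := ℓ + 2 * G with hL
  set A : ℝ := 7 * (2 * L + 2) with hA
  have hA1 : 1 ≤ A := by rw [hA]; have : (0 : ℝ) ≤ L := by positivity
                         linarith
  set x := max (max X (A ^ 2)) (max (104 * A / κ) (8 * (7 * B + 13) / κ)) with hx
  have hx1 : X ≤ x := (le_max_left _ _).trans (le_max_left _ _)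
  have hx2 : A ^ 2 ≤ x := (le_max_right _ _).trans (le_max_left _ _)
  have hx3 : 104 * A / κ ≤ x := (le_max_left _ _).trans (le_max_right _ _)
  have hx4 : 8 * (7 * B + 13) / κ ≤ x := (le_max_right _ _).trans (le_max_right _ _)
  have hxA : A ≤ x := by nlinarith
  have hx0 : 1 ≤ x := by linarith
  clear_value x
  set J := ⌈x ^ 2⌉₊ with hJ
  have hJ1 : x ^ 2 ≤ J := Nat.le_ceil _
  have hJ2 : (J : ℝ) ≤ x ^ 2 + 1 := (Nat.ceil_lt_add_one (by positivity)).le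
  have hJ0 : 0 < J := Nat.ceil_pos.2 (by positivity)
  obtain ⟨j0, hj00, hj0J, hj⟩ := dirichlet hα J hJ0
  obtain ⟨j1, h11, h12, h13⟩ := hj L
  obtain ⟨j2, h21, h22, h23⟩ := hj (ℓ + j1 + 2 * G)
  have hη1 : ‖α ^ j1 - 1‖ ≤ A / x ^ 2 := by
    refine h13.trans ?_
    have : ((L / j0 + 1 : ℕ) : ℝ) ≤ 2 * L + 2 := by
      have := Nat.div_le_self L j0
      exact_mod_cast (by omega : L / j0 + 1 ≤ 2 * L + 2)
    calc _ ≤ (2 * (L : ℝ) + 2) * (7 / x ^ 2) := by gcongr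
      _ = _ := by rw [hA]; ring
  have hη2 : ‖α ^ j2 - 1‖ ≤ A / x ^ 2 := by
    refine h23.trans ?_
    have : (((ℓ + j1 + 2 * G) / j0 + 1 : ℕ) : ℝ) ≤ 2 * L + 2 := by
      have h1 : (ℓ + j1 + 2 * G) / j0 ≤ (2 * L + j0) / j0 := Nat.div_le_div_right (by omega)
      rw [Nat.add_div_right _ hj00] at h1
      have := Nat.div_le_self (2 * L) j0
      exact_mod_cast (by omega : (ℓ + j1 + 2 * G) / j0 + 1 ≤ 2 * L + 2)
    calc _ ≤ (2 * (L : ℝ) + 2) * (7 / x ^ 2) := by gcongr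
      _ = _ := by rw [hA]; ring
  have s1 := hg.step hβ hα j1 G _ h11 (hG2.trans (pow_le_pow_right₀ hβ.le (by omega))) hη1
  have s2 := s1.step hβ hα j2 G _ h21 (hG2.trans (pow_le_pow_right₀ hβ.le (by omega))) hη2
  have hη : A / x ^ 2 ≤ κ / 104 := by
    rw [div_le_iff₀ hκ] at hx3
    rw [div_le_div_iff₀ (by positivity) (by norm_num)]
    nlinarith
  have hη' : A / x ^ 2 ≤ 1 := by rw [div_le_one (by positivity)]; nlinarith
  have hη0 : 0 ≤ A / x ^ 2 := by positivity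
  refine ⟨x, _, hx1, _, _, s2.mono ?_ ?_ le_rfl, ?_⟩
  · calc 1 * (A / x ^ 2) * (A / x ^ 2) = A ^ 2 / x ^ 4 := by field_simp
      _ ≤ x / x ^ 4 := by gcongr
      _ = _ := by field_simp
  · have e1 : 2 * (7 * B + 13) / x ≤ κ / 4 := by
      rw [div_le_iff₀ hκ] at hx4
      rw [div_le_div_iff₀ (by positivity) (by norm_num)]
      nlinarith
    have e2 : 1 * (A / x ^ 2) * (A / x ^ 2) ≤ κ / 104 := by nlinarith
    linarith
  · have h1 : (j1 : ℝ) ≤ L + j0 := by exact_mod_cast h12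
    have h2 : (j2 : ℝ) ≤ 2 * L + 2 * j0 := by exact_mod_cast (by omega : j2 ≤ 2 * L + 2 * j0)
    have h3 : (ℓ : ℝ) ≤ L := by exact_mod_cast (by omega : ℓ ≤ L)
    have h4 : (j0 : ℝ) ≤ J := by exact_mod_cast hj0J
    have h5 : (0 : ℝ) ≤ L := by positivity
    push_cast
    nlinarith

end Crest.Agent.R104
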